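import Vale.Agent.P233.Gig.Defs
import Mathlib.MeasureTheory.Measure.Hausdorff
import Mathlib.MeasureTheory.Measure.Doubling

/-! P233, interface of part D (geometry from the radial flows); only definitions and Props.
Sub-captain helper457, deputy helper276. Version 1. -/

set_option linter.all false

open MeasureTheory Filter Topology Set
open scoped ENNReal NNReal

universe u

namespace Vale.Agent.P233.PD

variable {M : Type u} [MetricSpace M] [MeasurableSpace M]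

/-- The class of `dtr p R = -(R - d_p)⁺`; on `ball p R` its gradient is `∇d_p`. -/
noncomputable def dp (m : Measure M) (p : M) (R : ℝ) : M →ₘ[m] ℝ := cl m (dtr p R)

/-- `h ∈ W^{1,2}` with the Lipschitz representative `b`. -/
def LW (m : Measure M) (h : M →ₘ[m] ℝ) (b : M → ℝ) : Prop :=
  h ∈ (sob m).W ∧ (∃ L : ℝ≥0, LipschitzWith L b) ∧ h =ᵐ[m] b

/-- `|∇h|(x)` -/
noncomputable def gn (m : Measure M) (h : M →ₘ[m] ℝ) (x : M) : ℝ := √((sob m).Γ h h x)

/-- INPUT OF PART D (from part C). Contraction maps towards `p` on `ball p R`: time runs in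
`(0,1]`, `Y 1 = id`, the point `x` is moved on a geodesic towards `p`, at time `t` it is at the
distance `(t + s₀)/(1 + s₀) d(p,x)` from `p`. -/
structure Contr (m : Measure M) (p : M) (s₀ R n K : ℝ) (Y : ℝ → M → M) : Prop where
  meas : Measurable fun z : ℝ × M => Y z.1 z.2
  rad : ∀ᵐ x ∂m, dist p x < R → ∀ t ∈ Ioc (0 : ℝ) 1,
    dist p (Y t x) = (t + s₀) / (1 + s₀) * dist p x ∧
      dist (Y t x) x = (1 - t) / (1 + s₀) * dist p x
  dens : ∀ t ∈ Ioc (0 : ℝ) 1, ∀ A : Set M, MeasurableSet A →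
    m {x | dist p x < R ∧ Y t x ∈ A} ≤ ENNReal.ofReal (K * t ^ (-n)) * m A
  curve : ∀ h b, LW m h b → ∀ᵐ x ∂m, dist p x < R → ∀ t ∈ Ioc (0 : ℝ) 1,
    IntervalIntegrable (fun τ => gn m h (Y τ x)) volume t 1 ∧
    |b x - b (Y t x)| ≤ dist p x / (1 + s₀) * ∫ τ in t..1, gn m h (Y τ x)

/-- Contraction maps for all centres; the constant does not depend on `p`, `s₀`. -/
def HasContr (m : Measure M) (n : ℝ) : Prop :=
  ∀ R > 0, ∃ K : ℝ, ∀ (p : M), ∀ s₀ ∈ Ioc (0 : ℝ) 1, ∃ Y, Contr m p s₀ R n K Y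

/-- Length space (approximate intermediate points; output of A5(v)). -/
def IsLen (M : Type u) [MetricSpace M] : Prop :=
  ∀ (x y : M) (s t : ℝ), 0 ≤ s → 0 ≤ t → s + t = dist x y → ∀ e > 0,
    ∃ w, dist x w ≤ s + e ∧ dist w y ≤ t + e

/-! ### Outputs -/

/-- D0: `|∇d_p| = 1`. -/
def UnitGrad (m : Measure M) : Prop :=
  ∀ (p : M) (R : ℝ), ∀ᵐ y ∂m, dist p y < R → (sob m).Γ (dp m p R) (dp m p R) y = 1

/-- D1a: Bishop–Gromov, up to a constant. -/
def BG (m : Measure M) (n : ℕ) : Prop :=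
  ∀ R₀ > 0, ∃ c > 0, ∀ (p : M) (R t : ℝ), 0 < R → R ≤ R₀ → 0 < t → t ≤ 1 →
    ENNReal.ofReal (c * t ^ n) * m (Metric.ball p R) ≤ m (Metric.ball p (t * R))

/-- D1: proper geodesic space, locally Ahlfors regular, doubling. -/
structure Geo (m : Measure M) (n : ℕ) : Prop where
  proper : ProperSpace M
  geod : ∀ x y : M, ∀ s t : ℝ, 0 ≤ s → 0 ≤ t → s + t = dist x y →
    ∃ w, dist x w = s ∧ dist w y = t
  vol : ∀ (x₀ : M) (R₀ : ℝ), ∃ c > 0, ∃ C : ℝ, ∀ y ∈ Metric.ball x₀ R₀, ∀ s : ℝ, 0 < s → s ≤ R₀ →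
    ENNReal.ofReal (c * s ^ n) ≤ m (Metric.ball y s) ∧
      m (Metric.ball y s) ≤ ENNReal.ofReal (C * s ^ n)
  dbl : IsUnifLocDoublingMeasure m

/-- D2: Morrey, for EVERY `p`. -/
def Morrey (m : Measure M) (n : ℝ) : Prop :=
  ∀ q : ℝ, n < q → 1 < q → ∀ R₀ > 0, ∃ C ≥ 0, ∀ (p : M) (R : ℝ), 0 < R → R ≤ R₀ →
    ∀ h b, LW m h b → ∀ c ≥ 0, ∀ η > 0,
      m {x | dist p x < R ∧ c * dist p x + η * R < |b x - b p|}
        ≤ ENNReal.ofReal ((C / η) ^ q)
          * ∫⁻ x in Metric.ball p R, ENNReal.ofReal (max 0 (gn m h x - c)) ^ q ∂m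

/-- D3: the infinitesimal Lipschitz constant is the slope. -/
def LipSlope (m : Measure M) : Prop :=
  ∀ h b, LW m h b → ∀ᵐ y ∂m, ∀ η > 0, ∃ r₀ > 0, ∀ r, 0 < r → r ≤ r₀ →
    ∀ z ∈ Metric.closedBall y r, ∀ z' ∈ Metric.closedBall y r,
      |b z - b z'| ≤ gn m h y * dist z z' + η * r

/-- First variation of `b` at `y` along all geodesics from `y` to `p`: the derivative is `-a`. -/
def FV (b : M → ℝ) (p y : M) (a : ℝ) : Prop :=
  ∀ ε > 0, ∃ δ > 0, ∀ z, dist y z < δ → dist y z + dist z p = dist y p →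
    |b z - b y + dist y z * a| ≤ ε * dist y z

/-- D4, for EVERY `p` and almost every `y`. -/
def FirstV (m : Measure M) : Prop :=
  ∀ h b, LW m h b → ∀ (p : M) (R : ℝ), ∀ᵐ y ∂m, dist p y < R →
    FV b p y ((sob m).Γ h (dp m p R) y)

/-- `g` is a jointly measurable version of `(p,y) ↦ ⟨∇h,∇d_p⟩(y)`. -/
def IsVer (m : Measure M) (h : M →ₘ[m] ℝ) (g : M → M → ℝ) : Prop :=
  (Measurable fun z : M × M => g z.1 z.2) ∧
    ∀ (p : M) (R : ℝ), ∀ᵐ y ∂m, dist p y < R → g p y = (sob m).Γ h (dp m p R) y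

/-- D0b: jointly measurable versions exist. -/
def HasVer (m : Measure M) : Prop := ∀ h ∈ (sob m).W, ∃ g, IsVer m h g

/-- D4b: for almost every `y` and almost every `p`. -/
def FirstV' (m : Measure M) : Prop :=
  ∀ h b g, LW m h b → IsVer m h g → ∀ᵐ y ∂m, ∀ᵐ p ∂m, FV b p y (g p y)

/-- A countable family of test functions with bounded Laplacian, Lipschitz representatives `b i`,
measurable versions `G i j` of the Gram functions and jointly measurable versions `g i` of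
`(p,y) ↦ ⟨∇f_i,∇d_p⟩(y)`. -/
structure TFam (m : Measure M) (f : ℕ → M →ₘ[m] ℝ) (b : ℕ → M → ℝ) (G : ℕ → ℕ → M → ℝ)
    (g : ℕ → M → M → ℝ) : Prop where
  test : ∀ i, f i ∈ (sob m).TestI
  lip : ∀ i, LW m (f i) (b i)
  meas : ∀ i j, Measurable (G i j)
  gram : ∀ i j, G i j =ᵐ[m] (sob m).Γ (f i) (f j)
  ver : ∀ i, IsVer m (f i) (g i)

/-- The squared length at `y` of the gradient of `∑_{i<k} c i • f i`. -/
def qf (G : ℕ → ℕ → M → ℝ) (k : ℕ) (c : ℕ → ℝ) (y : M) : ℝ :=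
  ∑ i ∈ Finset.range k, ∑ j ∈ Finset.range k, c i * c j * G i j y

/-- D3 for all real combinations of a countable family. -/
def LipSlope' (m : Measure M) : Prop :=
  ∀ f b G g, TFam m f b G g → ∀ᵐ y ∂m, ∀ (k : ℕ) (c : ℕ → ℝ), 0 ≤ qf G k c y ∧
    ∀ η > 0, ∃ r₀ > 0, ∀ r, 0 < r → r ≤ r₀ →
      ∀ z ∈ Metric.closedBall y r, ∀ z' ∈ Metric.closedBall y r,
        |∑ i ∈ Finset.range k, c i * (b i z - b i z')| ≤ √(qf G k c y) * dist z z' + η * r

/-- Cauchy–Schwarz for the versions: `⟨∇b,∇d_p⟩² ≤ |∇b|²`. -/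
def VerCS (m : Measure M) : Prop :=
  ∀ f b G g, TFam m f b G g → ∀ᵐ y ∂m, ∀ᵐ p ∂m, ∀ (k : ℕ) (c : ℕ → ℝ),
    (∑ i ∈ Finset.range k, c i * g i p y) ^ 2 ≤ qf G k c y

/-- D5: slabs. -/
def Slab (m : Measure M) (n : ℕ) : Prop :=
  ∀ (x₀ : M) (R₀ : ℝ), ∃ C : ℝ, ∀ f b G g, TFam m f b G g → ∀ᵐ y ∂m, dist x₀ y < R₀ →
    ∀ (k : ℕ) (c : ℕ → ℝ), qf G k c y = 1 → ∀ ε > 0, ∀ᶠ s in 𝓝[>] (0 : ℝ),
      m {z | dist y z < s ∧ |∑ i ∈ Finset.range k, c i * (b i z - b i y)| ≤ ε * s}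
        ≤ ENNReal.ofReal (C * ε * s ^ n)

/-- D6: small balls of directions; the constant depends only on the ball. -/
def SmallBalls (m : Measure M) : Prop :=
  ∀ (x₀ : M) (R₀ : ℝ), ∃ C : ℝ, ∀ f b G g, TFam m f b G g → ∀ᵐ y ∂m, dist x₀ y < R₀ →
    ∀ (k : ℕ) (c : ℕ → ℝ), qf G k c y = 1 → ∀ ε > 0,
      m {p | dist x₀ p < R₀ ∧ |∑ i ∈ Finset.range k, c i * g i p y| < ε}
        ≤ ENNReal.ofReal (C * ε)

/-- D7: finite rank: at almost every point, Gram matrices of more than `N₀` functions are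
singular. -/
def FinRank (m : Measure M) : Prop :=
  ∀ (x₀ : M) (R₀ : ℝ), ∃ N₀ : ℕ, ∀ f b G g, TFam m f b G g → ∀ᵐ y ∂m, dist x₀ y < R₀ →
    ∀ (k : ℕ) (i : Fin k → ℕ), (Matrix.of fun a a' : Fin k => G (i a) (i a') y).PosDef → k ≤ N₀

/-! ### Blocks. `Sp M m n K` are the standing hypotheses of part D. -/

/-- Standing hypotheses: `Std`, `m = ℋⁿ`, contraction maps, length space. -/
structure Sp (m : Measure M) [BorelSpace M] (n : ℕ) (K : ℝ) : Prop where
  std : Std m K n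
  haus : m = μH[(n : ℝ)]
  contr : HasContr m n
  len : IsLen M

/-- D0 -/
def Blk_D0 : Prop :=
  ∀ (M : Type u) [MetricSpace M] [CompleteSpace M] [SecondCountableTopology M] [MeasurableSpace M]
    [BorelSpace M] (m : Measure M) (n : ℕ) (K : ℝ), Sp m n K → UnitGrad m

/-- D1 -/
def Blk_D1 : Prop :=
  ∀ (M : Type u) [MetricSpace M] [CompleteSpace M] [SecondCountableTopology M] [MeasurableSpace M]
    [BorelSpace M] (m : Measure M) (n : ℕ) (K : ℝ), Sp m n K → BG m n ∧ Geo m n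

/-- D2 -/
def Blk_D2 : Prop :=
  ∀ (M : Type u) [MetricSpace M] [CompleteSpace M] [SecondCountableTopology M] [MeasurableSpace M]
    [BorelSpace M] (m : Measure M) (n : ℕ) (K : ℝ), Sp m n K → Morrey m n

/-- D3 -/
def Blk_D3 : Prop :=
  ∀ (M : Type u) [MetricSpace M] [CompleteSpace M] [SecondCountableTopology M] [MeasurableSpace M]
    [BorelSpace M] (m : Measure M) (n : ℕ) (K : ℝ), Sp m n K → Geo m n → Morrey m n →
      LipSlope m ∧ LipSlope' m

/-- D0b -/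
def Blk_D0b : Prop :=
  ∀ (M : Type u) [MetricSpace M] [CompleteSpace M] [SecondCountableTopology M] [MeasurableSpace M]
    [BorelSpace M] (m : Measure M) (n : ℕ) (K : ℝ), Sp m n K → Geo m n → UnitGrad m →
      HasVer m ∧ VerCS m

/-- D4 -/
def Blk_D4 : Prop :=
  ∀ (M : Type u) [MetricSpace M] [CompleteSpace M] [SecondCountableTopology M] [MeasurableSpace M]
    [BorelSpace M] (m : Measure M) (n : ℕ) (K : ℝ), Sp m n K → Geo m n → UnitGrad m →
      LipSlope m → FirstV m ∧ FirstV' m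

/-- D4c: the output for part F. -/
def Blk_D4c : Prop :=
  ∀ (M : Type u) [MetricSpace M] [CompleteSpace M] [SecondCountableTopology M] [MeasurableSpace M]
    [BorelSpace M] (m : Measure M) (n : ℕ) (K : ℝ), Sp m n K → UnitGrad m → FirstV m →
      ∃ G, FirstVar m G

/-- D5 -/
def Blk_D5 : Prop :=
  ∀ (M : Type u) [MetricSpace M] [CompleteSpace M] [SecondCountableTopology M] [MeasurableSpace M]
    [BorelSpace M] (m : Measure M) (n : ℕ) (K : ℝ), Sp m n K → Geo m n → Slab m n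

/-- D6 -/
def Blk_D6 : Prop :=
  ∀ (M : Type u) [MetricSpace M] [CompleteSpace M] [SecondCountableTopology M] [MeasurableSpace M]
    [BorelSpace M] (m : Measure M) (n : ℕ) (K : ℝ), Sp m n K → Geo m n → FirstV' m → Slab m n →
      SmallBalls m

/-- D7 -/
def Blk_D7 : Prop :=
  ∀ (M : Type u) [MetricSpace M] [CompleteSpace M] [SecondCountableTopology M] [MeasurableSpace M]
    [BorelSpace M] (m : Measure M) (n : ℕ) (K : ℝ), Sp m n K → BG m n → Geo m n → LipSlope' m →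
      FirstV' m → VerCS m → SmallBalls m → FinRank m

/-- Everything that part D proves. -/
structure DOut (m : Measure M) (n : ℕ) : Prop where
  unit : UnitGrad m
  bg : BG m n
  geo : Geo m n
  morrey : Morrey m n
  lip : LipSlope m
  lip' : LipSlope' m
  ver : HasVer m
  cs : VerCS m
  fv : FirstV m
  fv' : FirstV' m
  fvar : ∃ G, FirstVar m G
  slab : Slab m n
  small : SmallBalls m
  rank : FinRank m

/-- Assembly of part D. -/
theorem dout (h0 : Blk_D0.{u}) (h1 : Blk_D1.{u}) (h2 : Blk_D2.{u}) (h3 : Blk_D3.{u})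
    (h0b : Blk_D0b.{u}) (h4 : Blk_D4.{u}) (h4c : Blk_D4c.{u}) (h5 : Blk_D5.{u}) (h6 : Blk_D6.{u})
    (h7 : Blk_D7.{u}) (M : Type u) [MetricSpace M] [CompleteSpace M] [SecondCountableTopology M]
    [MeasurableSpace M] [BorelSpace M] (m : Measure M) (n : ℕ) (K : ℝ) (h : Sp m n K) :
    DOut m n :=
  have a0 := h0 M m n K h
  have a1 := h1 M m n K h
  have a2 := h2 M m n K h
  have a3 := h3 M m n K h a1.2 a2
  have a0b := h0b M m n K h a1.2 a0
  have a4 := h4 M m n K h a1.2 a0 a3.1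
  have a5 := h5 M m n K h a1.2
  have a6 := h6 M m n K h a1.2 a4.2 a5
  ⟨a0, a1.1, a1.2, a2, a3.1, a3.2, a0b.1, a0b.2, a4.1, a4.2, h4c M m n K h a0 a4.1, a5, a6,
    h7 M m n K h a1.1 a1.2 a3.2 a4.2 a0b.2 a6⟩

end Vale.Agent.P233.PD
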