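import Vale.Agent.P233.Bd3.B10
import Vale.Agent.P233.AB.StmtAB

/-! P233, (B) implies (A): common definitions of all parts (frozen, helper843). -/

set_option linter.all false

open MeasureTheory Filter Topology Set
open scoped ENNReal NNReal InnerProductSpace

universe u

namespace Vale.Agent.P233

/-! ### level `ε`: abstract calculus -/

section abstract

variable {M : Type u} [MeasurableSpace M] {m : Measure M}

/-- `exp f` -/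
noncomputable def ex (f : M →ₘ[m] ℝ) : M →ₘ[m] ℝ := AEEqFun.comp Real.exp Real.continuous_exp f

/-- A heat semigroup, with all the properties that are used. In all statements `f`, `g` are in
`L²` and times are `≥ 0`. -/
structure Heat (C : Calc m) (K : ℝ) (P : ℝ → (M →ₘ[m] ℝ) → (M →ₘ[m] ℝ)) : Prop where
  mem : ∀ t, 0 ≤ t → ∀ f : M →ₘ[m] ℝ, MemLp f 2 m → MemLp (P t f) 2 m
  zero : ∀ f : M →ₘ[m] ℝ, MemLp f 2 m → P 0 f = f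
  semi : ∀ s t, 0 ≤ s → 0 ≤ t → ∀ f : M →ₘ[m] ℝ, MemLp f 2 m → P (s + t) f = P s (P t f)
  add : ∀ t, 0 ≤ t → ∀ f g : M →ₘ[m] ℝ, MemLp f 2 m → MemLp g 2 m → P t (f + g) = P t f + P t g
  smul : ∀ t, 0 ≤ t → ∀ (c : ℝ), ∀ f : M →ₘ[m] ℝ, MemLp f 2 m → P t (c • f) = c • P t f
  symm : ∀ t, 0 ≤ t → ∀ f g : M →ₘ[m] ℝ, MemLp f 2 m → MemLp g 2 m → I (P t f * g) = I (f * P t g)
  contr : ∀ t, 0 ≤ t → ∀ f : M →ₘ[m] ℝ, MemLp f 2 m → I (P t f ^ 2) ≤ I (f ^ 2)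
  nonneg : ∀ t, 0 ≤ t → ∀ f : M →ₘ[m] ℝ, MemLp f 2 m → 0 ≤ f → 0 ≤ P t f
  le : ∀ t, 0 ≤ t → ∀ f : M →ₘ[m] ℝ, MemLp f 2 m → ∀ c : ℝ, 0 ≤ c → (∀ᵐ x ∂m, f x ≤ c) →
    ∀ᵐ x ∂m, P t f x ≤ c
  L1 : ∀ t, 0 ≤ t → ∀ f : M →ₘ[m] ℝ, MemLp f 2 m → MemLp f 1 m → MemLp (P t f) 1 m
  mass : ∀ t, 0 ≤ t → ∀ f : M →ₘ[m] ℝ, MemLp f 2 m → MemLp f 1 m → I (P t f) = I f
  /-- regularization -/
  isLap : ∀ t, 0 < t → ∀ f : M →ₘ[m] ℝ, MemLp f 2 m → C.IsLap (P t f) (C.lap (P t f)) ∧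
    I (C.lap (P t f) ^ 2) ≤ I (f ^ 2) / t ^ 2
  lapP : ∀ t, 0 ≤ t → ∀ f h : M →ₘ[m] ℝ, C.IsLap f h → C.IsLap (P t f) (P t h)
  memW : ∀ t, 0 ≤ t → ∀ f ∈ C.W, P t f ∈ C.W ∧ I (C.Γ (P t f) (P t f)) ≤ I (C.Γ f f)
  /-- continuity in time in `L²`, in `W` -/
  cont : ∀ f : M →ₘ[m] ℝ, MemLp f 2 m → ∀ s, 0 ≤ s →
    Tendsto (fun t => I ((P t f - P s f) ^ 2)) (𝓝[Ici 0] s) (𝓝 0)
  contW : ∀ f ∈ C.W, ∀ s, 0 ≤ s →
    Tendsto (fun t => C.nrm2 (P t f - P s f)) (𝓝[Ici 0] s) (𝓝 0)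
  /-- the heat equation in `L²`; for `f ∈ D(Δ)` up to `t = 0` -/
  deriv : ∀ f : M →ₘ[m] ℝ, MemLp f 2 m → ∀ t, 0 < t →
    Tendsto (fun s => I (((s - t)⁻¹ • (P s f - P t f) - C.lap (P t f)) ^ 2)) (𝓝[≠] t) (𝓝 0)
  derivD : ∀ f h : M →ₘ[m] ℝ, C.IsLap f h → ∀ t, 0 ≤ t →
    Tendsto (fun s => I (((s - t)⁻¹ • (P s f - P t f) - P t h) ^ 2)) (𝓝[Ici 0 \ {t}] t) (𝓝 0)
  /-- the heat equation in `W` -/
  derivW : ∀ f h : M →ₘ[m] ℝ, C.IsLap f h → h ∈ C.W → ∀ t, 0 ≤ t →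
    Tendsto (fun s => C.nrm2 ((s - t)⁻¹ • (P s f - P t f) - P t h)) (𝓝[Ici 0 \ {t}] t) (𝓝 0)
  /-- gradient estimates -/
  grad : ∀ t, 0 ≤ t → ∀ f ∈ C.W, ∀ L : ℝ, (∀ᵐ x ∂m, C.Γ f f x ≤ L) →
    ∀ᵐ x ∂m, C.Γ (P t f) (P t f) x ≤ Real.exp (-2 * K * t) * L
  gradW : ∀ t, 0 ≤ t → ∀ f ∈ C.W, ∀ σ : M →ₘ[m] ℝ, MemLp σ 2 m → MemLp σ ∞ m → 0 ≤ σ →
    I (σ * C.Γ (P t f) (P t f)) ≤ Real.exp (-2 * K * t) * I (P t σ * C.Γ f f)
  gradB : ∃ c : ℝ, ∀ t, 0 < t → t ≤ 1 → ∀ f : M →ₘ[m] ℝ, MemLp f 2 m → ∀ L : ℝ, (∀ᵐ x ∂m, |f x| ≤ L) →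
    ∀ᵐ x ∂m, C.Γ (P t f) (P t f) x ≤ c * L ^ 2 / t
  test : ∀ t, 0 ≤ t → ∀ f ∈ C.Test, P t f ∈ C.Test
  testI : ∀ t, 0 ≤ t → ∀ f ∈ C.TestI, P t f ∈ C.TestI
  testI' : ∀ t, 0 < t → ∀ f : M →ₘ[m] ℝ, MemLp f 2 m → MemLp f ∞ m → P t f ∈ C.TestI

/-- A pair of level `ε` on `[a,b]`: `f = exp (φ/ε)` solves the backward heat equation and
`g = exp (-u/ε)` the forward one, both with the generator `(ε/2) Δ`; all functions are `1` (resp.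
`0` for `φ`, `u`) plus a test function with bounded Laplacian. The density is
`ρ = f g = exp ((φ - u)/ε)`. -/
structure Pair (C : Calc m) (P : ℝ → (M →ₘ[m] ℝ) → (M →ₘ[m] ℝ)) (ε a b : ℝ)
    (φ u : ℝ → M →ₘ[m] ℝ) : Prop where
  hε : 0 < ε
  hab : a < b
  φ_mem : ∀ t ∈ Icc a b, φ t ∈ C.TestI
  u_mem : ∀ t ∈ Icc a b, u t ∈ C.TestI
  f_mem : ∀ t ∈ Icc a b, ex (ε⁻¹ • φ t) - 1 ∈ C.TestI
  g_mem : ∀ t ∈ Icc a b, ex (-(ε⁻¹ • u t)) - 1 ∈ C.TestI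
  f_eq : ∀ t ∈ Icc a b, ex (ε⁻¹ • φ t) - 1 = P (ε * (b - t) / 2) (ex (ε⁻¹ • φ b) - 1)
  g_eq : ∀ t ∈ Icc a b, ex (-(ε⁻¹ • u t)) - 1 = P (ε * (t - a) / 2) (ex (-(ε⁻¹ • u a)) - 1)

/-- the density of a pair -/
noncomputable def rh (ε : ℝ) (φ u : ℝ → M →ₘ[m] ℝ) (t : ℝ) : M →ₘ[m] ℝ := ex (ε⁻¹ • (φ t - u t))

/-- `L = log ρ` -/
noncomputable def LL (ε : ℝ) (φ u : ℝ → M →ₘ[m] ℝ) (t : ℝ) : M →ₘ[m] ℝ := ε⁻¹ • (φ t - u t)

/-- `θ = (φ + u)/2` -/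
noncomputable def th (φ u : ℝ → M →ₘ[m] ℝ) (t : ℝ) : M →ₘ[m] ℝ := (2 : ℝ)⁻¹ • (φ t + u t)

/-- The entropic flow of level `ε` on `[0,1]` with the (mollified) potential `a` at time `0` and
the density `exp l` at time `1`. Different `l` give the same `u`. -/
structure Fam (C : Calc m) (P : ℝ → (M →ₘ[m] ℝ) → (M →ₘ[m] ℝ)) (ε : ℝ) (a l : M →ₘ[m] ℝ)
    (φ u : ℝ → M →ₘ[m] ℝ) : Prop where
  pair : Pair C P ε 0 1 φ u
  init : u 0 = C.J (ε ^ 2) (C.J (ε ^ 2) a)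
  fin : φ 1 = u 1 + ε • l

/-- The weak form of `∫ w Hess F(∇h,∇h) dm`. -/
noncomputable def Calc.wH (C : Calc m) (F h w : M →ₘ[m] ℝ) : ℝ :=
  -I (C.Γ F h * (w * C.lap h + C.Γ h w)) - 2⁻¹ * I (w * C.Γ F (C.Γ h h))

/-- `Hess F ≤ Λ` in the weak sense. -/
def Calc.WHess (C : Calc m) (F Λ : M →ₘ[m] ℝ) : Prop :=
  ∀ h ∈ C.TestI, ∀ w ∈ C.TestI, 0 ≤ w → C.wH F h w ≤ I (w * Λ * C.Γ h h)

/-! ### Hessian operators -/

variable {E : Type*} [NormedAddCommGroup E] [InnerProductSpace ℝ E]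

/-- `HO b x : E → E` is the Hessian of `b` at `x`, extended by `0` to the orthogonal complement of
the tangent space (closed span of the gradients of test functions). -/
structure IsHess (C : Calc m) (Gr : (M →ₘ[m] ℝ) → M → E) (HO : (M →ₘ[m] ℝ) → M → E →L[ℝ] E) :
    Prop where
  meas : ∀ b ∈ C.Test, ∀ v : E, AEStronglyMeasurable (fun x => HO b x v) m
  norm : ∃ c : ℝ, ∀ b ∈ C.Test, ∃ L : M → ℝ, MemLp L 2 m ∧ (∀ᵐ x ∂m, ‖HO b x‖ ≤ L x) ∧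
    ∫ x, L x ^ 2 ∂m ≤ c * (I (C.lap b ^ 2) + I (C.Γ b b))
  symm : ∀ b ∈ C.Test, ∀ᵐ x ∂m, ∀ v w : E, ⟪HO b x v, w⟫_ℝ = ⟪v, HO b x w⟫_ℝ
  grad : ∀ b ∈ C.Test, ∀ f ∈ C.Test, ∀ g ∈ C.Test,
    ∀ᵐ x ∂m, ⟪HO b x (Gr f x), Gr g x⟫_ℝ = C.hess b f g x
  lin : ∀ b ∈ C.Test, ∀ b' ∈ C.Test, ∀ t : ℝ, ∀ᵐ x ∂m, HO (t • b + b') x = t • HO b x + HO b' x
  /-- the gradient of `⟨∇f,∇g⟩` -/
  prod : ∀ f ∈ C.Test, ∀ g ∈ C.Test,
    ∀ᵐ x ∂m, Gr (C.Γ f g) x = HO f x (Gr g x) + HO g x (Gr f x)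
  /-- the range is contained in the tangent space of every graph-dense countable family -/
  range : ∀ e : ℕ → M →ₘ[m] ℝ, (∀ i, e i ∈ C.Test) → (∀ f ∈ C.W, ∀ δ > 0, ∃ i, C.nrm2 (f - e i) < δ) →
    ∀ b ∈ C.Test, ∀ᵐ x ∂m, ∀ v : E, HO b x v ∈ closure (Submodule.span ℝ
      (Set.range fun i => Gr (e i) x) : Set E)

end abstract

/-! ### the metric space -/

section metric

variable {M : Type u} [MetricSpace M] [MeasurableSpace M]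

/-- the class of a function -/
noncomputable def cl (m : Measure M) (f : M → ℝ) : M →ₘ[m] ℝ :=
  open Classical in if h : AEStronglyMeasurable f m then AEEqFun.mk f h else 0

/-- Standing hypotheses: full support, `RCD(K,N)` (in the form of `Bd3.B1`); balls have finite
measure (this follows from the growth condition). -/
structure Std (m : Measure M) (K N : ℝ) : Prop where
  full : m.IsOpenPosMeasure
  hN : 0 < N
  rcd : IsRCD m K N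
  hfin : ∀ (x : M) (r : ℝ), m (Metric.ball x r) < ∞

/-- the radial potential with centre `p`: `min (d_p²/(2(t+s₀)) - C₀, 0)` -/
noncomputable def zr (p : M) (s₀ C₀ t : ℝ) (x : M) : ℝ :=
  min (dist p x ^ 2 / (2 * (t + s₀)) - C₀) 0

/-- truncated distance function with bounded support -/
noncomputable def dtr (p : M) (R : ℝ) (x : M) : ℝ := min (dist p x) R - R

/-- `md_κ`: `md_κ'' = 1 - κ md_κ`, `md_κ(0) = md_κ'(0) = 0` -/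
noncomputable def md (κ r : ℝ) : ℝ :=
  if κ = 0 then r ^ 2 / 2
  else if 0 < κ then (1 - Real.cos (√κ * r)) / κ
  else (Real.cosh (√(-κ) * r) - 1) / (-κ)

/-- `sn_κ = md_κ'` -/
noncomputable def sn (κ r : ℝ) : ℝ :=
  if κ = 0 then r
  else if 0 < κ then Real.sin (√κ * r) / √κ
  else Real.sinh (√(-κ) * r) / √(-κ)

/-- `cs_κ = md_κ'' = sn_κ'` -/
noncomputable def cs (κ r : ℝ) : ℝ :=
  if κ = 0 then 1
  else if 0 < κ then Real.cos (√κ * r)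
  else Real.cosh (√(-κ) * r)

/-- `md_κ(d_p)` truncated at distance `R`, with bounded support -/
noncomputable def mdr (κ : ℝ) (p : M) (R : ℝ) (x : M) : ℝ := md κ (min (dist p x) R) - md κ R

/-- The weak Hessian bound of `md_κ(d_p)` in the ball of radius `R` (output of part E): globally
`Hess ≤ Λ`, with `Λ = 1 - κ md_κ(d_p) = cs_κ(d_p)` in the ball and a constant outside. -/
def HessDist (m : Measure M) (κ : ℝ) (p : M) (R : ℝ) : Prop :=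
  ∃ Λ₀ : ℝ, (sob m).WHess (cl m (mdr κ p R))
    (cl m fun x => open Classical in if dist p x < R then cs κ (dist p x) else Λ₀)

/-- admissible radii: `√κ R < π` -/
def Adm (κ R : ℝ) : Prop := 0 < R ∧ √κ * R < Real.pi

/-- (P): radial concavity along a geodesic (output of part F2) -/
def RadConc (M : Type u) [MetricSpace M] (κ : ℝ) : Prop :=
  ∀ w p x : M, √κ * (dist w p + dist p x + dist x w) < 2 * Real.pi →
    ∃ σ : ℝ → M, (∀ s ∈ Icc 0 (dist w x), dist w (σ s) = s ∧ dist (σ s) x = dist w x - s) ∧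
      ∀ s ∈ Icc 0 (dist w x), T.Cmp κ (dist p w) (dist p x) s (dist w x - s) (dist p (σ s))

/-- (Q): first variation along every geodesic (output of part D4), and unit gradients;
`G p x w = ⟨∇d_p,∇d_x⟩(w)`. -/
def FirstVar (m : Measure M) (G : M → M → M → ℝ) : Prop :=
  (∀ p x, ∀ᵐ w ∂m, ∀ σ : ℝ → M, w ≠ x → (∀ s ∈ Icc 0 (dist w x), dist w (σ s) = s ∧
      dist (σ s) x = dist w x - s) →
    Tendsto (fun s => (dist p (σ s) - dist p w) / s) (𝓝[>] 0) (𝓝 (-G p x w))) ∧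
  (∀ p x y, ∀ᵐ w ∂m, G p p w = 1 ∧ G p x w = G x p w ∧
    ∀ a b c : ℝ, 0 ≤ a ^ 2 + b ^ 2 + c ^ 2 + 2 * a * b * G p x w + 2 * b * c * G x y w
      + 2 * c * a * G y p w)

end metric

end Vale.Agent.P233
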