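import Vale.Agent.P233.Gig.Defs

/-! P233, interface of part A (the viscous potentials); only definitions and Props.
Sub-captain helper103, deputy helper715. Version 3. -/

set_option linter.all false

open MeasureTheory Filter Topology Set
open scoped ENNReal NNReal

universe u

namespace Vale.Agent.P233.PA

/-- `ε_n = 1/(n+1)` -/
noncomputable def en (n : ℕ) : ℝ := ((n : ℝ) + 1)⁻¹

section abstract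

variable {M : Type u} [MeasurableSpace M] {m : Measure M}

/-- The constant `(1 + ε|K|) |K| C₀` of the Laplacian bound of the Hamilton form of A3. -/
noncomputable def c1 (K ε C₀ : ℝ) : ℝ := (1 + ε * |K|) * |K| * C₀

/-- Bounds of the forward potential `u` on `[0,1]`, `-C₀ ≤ u ≤ 0`. The constants `D`, `D' s` do not
depend on `ε` (they depend on `K`, `N`, `p`, `s₀`, `C₀`), the constants of `ham`, `lap`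
depend on `K`, `N`, `C₀` only. -/
structure LevU (C : Calc m) (K N ε C₀ D : ℝ) (D' : ℝ → ℝ) (u : ℝ → M →ₘ[m] ℝ) : Prop where
  lo : ∀ t ∈ Icc (0 : ℝ) 1, ∀ᵐ x ∂m, -C₀ ≤ u t x
  hi : ∀ t ∈ Icc (0 : ℝ) 1, ∀ᵐ x ∂m, u t x ≤ 0
  /-- A2 -/
  lip : ∀ t ∈ Icc (0 : ℝ) 1, ∀ᵐ x ∂m, C.Γ (u t) (u t) x ≤ D ^ 2
  /-- A2H -/
  ham : ∀ t ∈ Ioc (0 : ℝ) 1, ∀ᵐ x ∂m, t * C.Γ (u t) (u t) x ≤ 2 * (1 + ε * |K|) * C₀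
  /-- A3 -/
  lap : ∀ t ∈ Ioc (0 : ℝ) 1, ∀ᵐ x ∂m, C.lap (u t) x ≤ N / t + c1 K ε C₀
  /-- A5t -/
  time : ∀ s ∈ Icc (0 : ℝ) 1, ∀ t ∈ Icc (0 : ℝ) 1, ∀ᵐ x ∂m, |u t x - u s x| ≤ D * |t - s|
  lapε : ∀ t ∈ Icc (0 : ℝ) 1, ∀ᵐ x ∂m, ε * |C.lap (u t) x| ≤ D
  /-- A5(vi) -/
  u2 : ∀ t ∈ Icc (0 : ℝ) 1, I (u t ^ 2) ≤ D
  /-- A5en: the (unweighted) energy -/
  en : ∀ s ∈ Ioc (0 : ℝ) 1, ∀ t ∈ Icc s 1, I (C.Γ (u t) (u t)) ≤ D' s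

/-- Bounds of the backward potential and of the density; the final density is `exp l`, `R` is a
bound of it. The constant `D` and the function `D' : (0,1] → ℝ` do not depend on `ε` (but on
`K`, `N`, `p`, `s₀`, `C₀` and `l`); the constants of `dens` are explicit. -/
structure LevF (C : Calc m) (K N ε C₀ R D : ℝ) (D' : ℝ → ℝ) (l : M →ₘ[m] ℝ)
    (φ u : ℝ → M →ₘ[m] ℝ) : Prop where
  bd : ∀ t ∈ Icc (0 : ℝ) 1, ∀ᵐ x ∂m, |φ t x| ≤ D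
  /-- A2 for `φ` -/
  lip : ∀ t ∈ Icc (0 : ℝ) 1, ∀ᵐ x ∂m, C.Γ (φ t) (φ t) x ≤ D ^ 2
  /-- A3 for `φ` -/
  lap : ∀ t ∈ Ico (0 : ℝ) 1, ∀ᵐ x ∂m, -(N / (1 - t) + D) ≤ C.lap (φ t) x
  /-- the same up to `t = 1`: `Δφ_t ≥ -C/(1-t+ε)` -/
  lap' : ∀ t ∈ Icc (0 : ℝ) 1, ∀ᵐ x ∂m, -(D / (1 - t + ε)) ≤ C.lap (φ t) x
  /-- A5t for `φ` -/
  time : ∀ s ∈ Icc (0 : ℝ) 1, ∀ t ∈ Icc (0 : ℝ) 1, ∀ᵐ x ∂m, |φ t x - φ s x| ≤ D * |t - s|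
  lapε : ∀ t ∈ Icc (0 : ℝ) 1, ∀ᵐ x ∂m, ε * |C.lap (φ t) x| ≤ D
  /-- A4 -/
  dens : ∀ t ∈ Ioc (0 : ℝ) 1, ∀ᵐ x ∂m,
    rh ε φ u t x ≤ t ^ (-N) * Real.exp (c1 K ε C₀ * (1 - t)) * R
  /-- A5(vi) -/
  f2 : ∀ t ∈ Icc (0 : ℝ) 1, I ((ex (ε⁻¹ • φ t) - 1) ^ 2) ≤ D
  φ2 : ∀ t ∈ Icc (0 : ℝ) 1, I (φ t ^ 2) ≤ D
  rho2 : ∀ s ∈ Ioc (0 : ℝ) 1, ∀ t ∈ Icc s 1, I ((rh ε φ u t - 1) ^ 2) ≤ D' s

end abstract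

section metric

variable {M : Type u} [MetricSpace M] [MeasurableSpace M]

/-- The limit potentials: `z t = zr p s₀ C₀ t` is the limit of `u n t`, `φ₀ t` the `U`-limit of
`φ n t` (helper769). -/
structure PotLim (m : Measure M) (N : ℝ) (p : M) (s₀ C₀ : ℝ) (U : Ultrafilter ℕ)
    (φ u : ℕ → ℝ → M →ₘ[m] ℝ) (φ₀ : ℝ → M → ℝ) (L B R₀ c : ℝ) : Prop where
  lip : ∀ s ∈ Icc (0 : ℝ) 1, ∀ t ∈ Icc (0 : ℝ) 1, ∀ x y : M,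
    |φ₀ s x - φ₀ t y| ≤ L * (|s - t| + dist x y)
  lo : ∀ t ∈ Icc (0 : ℝ) 1, ∀ x, -B ≤ φ₀ t x
  le : ∀ t ∈ Icc (0 : ℝ) 1, ∀ x, φ₀ t x ≤ zr p s₀ C₀ t x
  far : ∀ t ∈ Icc (0 : ℝ) 1, ∀ x, R₀ ≤ dist p x → φ₀ t x = 0
  one : ∀ x, φ₀ 1 x = zr p s₀ C₀ 1 x
  convφ : ∀ t ∈ Icc (0 : ℝ) 1, ∀ w : M →ₘ[m] ℝ, 0 ≤ w → MemLp w 1 m →
    Tendsto (fun n => I (w * (φ n t - cl m (φ₀ t)) ^ 2)) U (𝓝 0)
  lapφ : ∀ t ∈ Ico (0 : ℝ) 1, ∀ g ∈ (sob m).W, 0 ≤ g → MemLp g 1 m →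
    I ((sob m).Γ (cl m (φ₀ t)) g) ≤ (N / (1 - t) + c) * I g
  gradφ : ∀ t ∈ Ico (0 : ℝ) 1, ∀ w : M →ₘ[m] ℝ, 0 ≤ w → MemLp w 1 m →
    Tendsto (fun n => I (w * (sob m).Γ (φ n t - cl m (φ₀ t)) (φ n t - cl m (φ₀ t)))) U (𝓝 0)
  /-- everything dominated by the density vanishes on `{φ₀ < z}` -/
  dead : ∀ t ∈ Ioo (0 : ℝ) 1, ∀ (r : ℕ → M →ₘ[m] ℝ) (r₀ : M →ₘ[m] ℝ) (c₀ : ℝ),
    (∀ n, ∀ᵐ x ∂m, |r n x| ≤ c₀ * rh (en n) (φ n) (u n) t x) →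
    (∀ g : M →ₘ[m] ℝ, MemLp g 1 m → MemLp g ∞ m → Tendsto (fun n => I (r n * g)) U (𝓝 (I (r₀ * g)))) →
    ∀ᵐ x ∂m, φ₀ t x < zr p s₀ C₀ t x → r₀ x = 0
  /-- locality -/
  loc : ∀ t ∈ Icc (0 : ℝ) 1, ∀ h ∈ (sob m).W, ∀ᵐ x ∂m, φ₀ t x = zr p s₀ C₀ t x →
    (sob m).Γ (cl m (φ₀ t)) h x = (sob m).Γ (cl m (zr p s₀ C₀ t)) h x

/-- The forward potentials for `ε → 0` (whole sequence, no ultrafilter). -/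
structure ULim (m : Measure M) (K N : ℝ) (p : M) (s₀ C₀ : ℝ) (u : ℕ → ℝ → M →ₘ[m] ℝ) : Prop where
  mem : ∀ t ∈ Icc (0 : ℝ) 1, cl m (zr p s₀ C₀ t) ∈ (sob m).A ∧
    MemLp ((sob m).Γ (cl m (zr p s₀ C₀ t)) (cl m (zr p s₀ C₀ t))) ∞ m
  /-- A5(iii), uniform one-sided bound -/
  up : ∃ δ : ℕ → ℝ, Tendsto δ atTop (𝓝 0) ∧ ∀ᶠ n in atTop, ∀ t ∈ Icc (0 : ℝ) 1,
    ∀ᵐ x ∂m, u n t x ≤ zr p s₀ C₀ t x + δ n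
  /-- convergence, A5(iii)+(iv) -/
  conv : ∀ t ∈ Icc (0 : ℝ) 1, Tendsto (fun n => I ((u n t - cl m (zr p s₀ C₀ t)) ^ 2)) atTop (𝓝 0)
  /-- strong convergence of the gradients, A5(i) -/
  grad : ∀ t ∈ Ioc (0 : ℝ) 1, ∀ w : M →ₘ[m] ℝ, 0 ≤ w → MemLp w 1 m →
    Tendsto (fun n => I (w * (sob m).Γ (u n t - cl m (zr p s₀ C₀ t)) (u n t - cl m (zr p s₀ C₀ t))))
      atTop (𝓝 0)
  lap : ∀ t ∈ Ioc (0 : ℝ) 1, ∀ g ∈ (sob m).W, 0 ≤ g → MemLp g 1 m →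
    -I ((sob m).Γ (cl m (zr p s₀ C₀ t)) g) ≤ (N / t + c1 K 0 C₀) * I g
  /-- A5(ii): Hamilton–Jacobi, i.e. `|∇d_p| = 1` a.e. where `z < 0` -/
  hj : ∀ t ∈ Icc (0 : ℝ) 1, ∀ᵐ x ∂m,
    (zr p s₀ C₀ t x < 0 → (sob m).Γ (cl m (zr p s₀ C₀ t)) (cl m (zr p s₀ C₀ t)) x
      = (dist p x / (t + s₀)) ^ 2) ∧
    (zr p s₀ C₀ t x = 0 → (sob m).Γ (cl m (zr p s₀ C₀ t)) (cl m (zr p s₀ C₀ t)) x = 0)

/-- OUTPUT OF PART A for the centre `p` and `s₀`, `C₀`: the potentials `u n` (`ε = en n`), and for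
every final log-density `l` the potentials `φ l n`. -/
structure OutA (m : Measure M) (K N : ℝ) (P : ℝ → (M →ₘ[m] ℝ) → (M →ₘ[m] ℝ)) (p : M) (s₀ C₀ : ℝ)
    (u : ℕ → ℝ → M →ₘ[m] ℝ) (φ : (M →ₘ[m] ℝ) → ℕ → ℝ → M →ₘ[m] ℝ) : Prop where
  fam : ∀ᶠ n in atTop, ∀ l ∈ (sob m).TestI,
    Fam (sob m) P (en n) (cl m (zr p s₀ C₀ 0)) l (φ l n) (u n)
  levU : ∃ D D', ∀ᶠ n in atTop, LevU (sob m) K N (en n) C₀ D D' (u n)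
  levF : ∀ l ∈ (sob m).TestI, ∀ R : ℝ, 1 ≤ R → (∀ᵐ x ∂m, l x ≤ Real.log R) →
    ∃ D D', ∀ᶠ n in atTop, LevF (sob m) K N (en n) C₀ R D D' l (φ l n) (u n)
  ulim : ULim m K N p s₀ C₀ u
  plim : ∀ U : Ultrafilter ℕ, (U : Filter ℕ) ≤ atTop → ∃ φ₀ L B R₀ c,
    PotLim m N p s₀ C₀ U (φ 0) u φ₀ L B R₀ c
  /-- `ρ^l ≤ sup (exp l) ρ^0`; in particular all `φ l` have the same limit -/
  same : ∀ l ∈ (sob m).TestI, ∀ B : ℝ, 0 ≤ B → (∀ᵐ x ∂m, |l x| ≤ B) → ∀ᶠ n in atTop,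
    ∀ t ∈ Icc (0 : ℝ) 1, ∀ᵐ x ∂m, |φ l n t x - φ 0 n t x| ≤ B * en n

end metric

/-- A1 (heat semigroup) -/
def Blk_A1 : Prop :=
  ∀ (M : Type u) [MetricSpace M] [CompleteSpace M] [SecondCountableTopology M] [MeasurableSpace M]
    [BorelSpace M] (m : Measure M) (K N : ℝ), Std m K N → ∃ P, Heat (sob m) K P

/-- A5(v) (length space; `IsLen` of part D, approximate intermediate points) -/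
def Blk_A5v : Prop :=
  ∀ (M : Type u) [MetricSpace M] [CompleteSpace M] [SecondCountableTopology M] [MeasurableSpace M]
    [BorelSpace M] (m : Measure M) (K N : ℝ), Std m K N →
    ∀ (x y : M) (s t : ℝ), 0 ≤ s → 0 ≤ t → s + t = dist x y → ∀ e > 0,
      ∃ w, dist x w ≤ s + e ∧ dist w y ≤ t + e

/-- PART A -/
def Blk_A : Prop :=
  ∀ (M : Type u) [MetricSpace M] [CompleteSpace M] [SecondCountableTopology M] [MeasurableSpace M]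
    [BorelSpace M] (m : Measure M) (K N : ℝ), Std m K N → ∀ P, Heat (sob m) K P →
    ∀ (p : M) (s₀ C₀ : ℝ), 0 < s₀ → s₀ ≤ 1 → 0 < C₀ → ∃ u φ, OutA m K N P p s₀ C₀ u φ

end Vale.Agent.P233.PA
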