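import Vale.Agent.P233.Gig.Defs

/-! P233, (B) implies (A), part B (level `ε`, abstract calculus, no tilts): interfaces.
Drafter: helper329. No proofs here: definitions and the block statements `Blk_B…` only. -/

set_option linter.all false

open MeasureTheory Filter Topology Set
open scoped ENNReal NNReal InnerProductSpace

universe u v

namespace Vale.Agent.P233

/-! ### definitions -/

section defs

variable {M : Type u} [MeasurableSpace M] {m : Measure M}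

/-- `f` is differentiable at `t` inside `J` in the norm of `W`, with the derivative `f'`. -/
def Calc.DerW (C : Calc m) (J : Set ℝ) (f : ℝ → M →ₘ[m] ℝ) (f' : M →ₘ[m] ℝ) (t : ℝ) : Prop :=
  Tendsto (fun s => C.nrm2 ((s - t)⁻¹ • (f s - f t) - f')) (𝓝[J \ {t}] t) (𝓝 0)

/-- `f` is continuous at `t` inside `J` in the norm of `W`. -/
def Calc.CtW (C : Calc m) (J : Set ℝ) (f : ℝ → M →ₘ[m] ℝ) (t : ℝ) : Prop :=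
  Tendsto (fun s => C.nrm2 (f s - f t)) (𝓝[J] t) (𝓝 0)

/-- Regularity in time of the potentials of a pair (output of block B0, all that B uses): the two
Hamilton-Jacobi equations in the norm of `W`, up to both ends of the interval. -/
structure Calc.Reg (C : Calc m) (ε a b : ℝ) (φ u : ℝ → M →ₘ[m] ℝ) : Prop where
  hε : 0 < ε
  hab : a < b
  φ_mem : ∀ t ∈ Icc a b, φ t ∈ C.TestI
  u_mem : ∀ t ∈ Icc a b, u t ∈ C.TestI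
  dφ : ∀ t ∈ Icc a b, C.DerW (Icc a b) φ
    (-((ε / 2) • C.lap (φ t)) - (2 : ℝ)⁻¹ • C.Γ (φ t) (φ t)) t
  du : ∀ t ∈ Icc a b, C.DerW (Icc a b) u
    ((ε / 2) • C.lap (u t) - (2 : ℝ)⁻¹ • C.Γ (u t) (u t)) t
  cφ : ∀ t ∈ Icc a b, C.CtW (Icc a b) (fun s => C.lap (φ s)) t
  cu : ∀ t ∈ Icc a b, C.CtW (Icc a b) (fun s => C.lap (u s)) t
  bdd : ∃ B : ℝ, ∀ t ∈ Icc a b, ∀ᵐ x ∂m, |φ t x| ≤ B ∧ |u t x| ≤ B ∧
    C.Γ (φ t) (φ t) x ≤ B ∧ C.Γ (u t) (u t) x ≤ B ∧ |C.lap (φ t) x| ≤ B ∧ |C.lap (u t) x| ≤ B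

/-- The bounds on `[s,1]` with a constant `Λ` that does not depend on `ε` (output of part A). -/
structure Bd (C : Calc m) (ε s Λ : ℝ) (φ u : ℝ → M →ₘ[m] ℝ) : Prop where
  gu : ∀ t ∈ Icc s 1, ∀ᵐ x ∂m, C.Γ (u t) (u t) x ≤ Λ
  gφ : ∀ t ∈ Icc s 1, ∀ᵐ x ∂m, C.Γ (φ t) (φ t) x ≤ Λ
  lu : ∀ t ∈ Icc s 1, ∀ᵐ x ∂m, C.lap (u t) x ≤ Λ
  lφ : ∀ t ∈ Icc s 1, ∀ᵐ x ∂m, -(Λ / ε) ≤ C.lap (φ t) x
  lφ' : ∀ t ∈ Ico s 1, ∀ᵐ x ∂m, -(Λ / (1 - t)) ≤ C.lap (φ t) x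
  rho : ∀ t ∈ Icc s 1, ∀ᵐ x ∂m, rh ε φ u t x ≤ Λ
  l2 : ∀ t ∈ Icc s 1, I ((rh ε φ u t - 1) ^ 2) ≤ Λ
  en : ∀ t ∈ Icc s 1, I (C.Γ (u t) (u t)) ≤ Λ

/-- One level `ε` for part B: time interval `[s,1]`, density `exp l` at time `1`. -/
structure LvB (C : Calc m) (ε s Λ : ℝ) (l : M →ₘ[m] ℝ) (φ u : ℝ → M →ₘ[m] ℝ) : Prop where
  hε1 : ε ≤ 1
  hs : 0 < s
  reg : C.Reg ε s 1 φ u
  bd : Bd C ε s Λ φ u
  fin : φ 1 = u 1 + ε • l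
  l_mem : l ∈ C.TestI
  l_bd : ∀ᵐ x ∂m, |l x| ≤ Λ ∧ C.Γ l l x ≤ Λ ∧ |C.lap l x| ≤ Λ
  l_en : I (C.Γ l l) ≤ Λ

/-- `∫ w Γ₂(b) dm` in weak form, for weights `w` with `w - 1 ∈ A` -/
noncomputable def Calc.G2 (C : Calc m) (b w : M →ₘ[m] ℝ) : ℝ :=
  -(2⁻¹ * I (C.Γ (C.Γ b b) (w - 1))) - I (w * C.Γ b (C.lap b))

/-- `∫ w Hess F(∇h,∇h) dm` in weak form, for weights `w` with `w - 1 ∈ A` -/
noncomputable def Calc.wHc (C : Calc m) (F h w : M →ₘ[m] ℝ) : ℝ :=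
  -I (C.Γ F h * (w * C.lap h + C.Γ h (w - 1))) - 2⁻¹ * I (w * C.Γ F (C.Γ h h))

variable {E : Type*} [NormedAddCommGroup E] [InnerProductSpace ℝ E]

/-- The curvature functional `R(∇a,∇b,∇b,∇a)(w)` for weights `w` with `w - 1` in `TestI`;
`U b a = ∇_{∇a} ∇b` (structure `IsHU` of the library). -/
noncomputable def Calc.RR (C : Calc m) (U : (M →ₘ[m] ℝ) → (M →ₘ[m] ℝ) → M → E)
    (a b w : M →ₘ[m] ℝ) : ℝ :=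
  -I ((C.Γ a (w - 1) + w * C.lap a) * C.hess b b a)
    + I ((C.Γ b (w - 1) + w * C.lap b) * C.hess b a a)
    - I (w * ipE m (U a a) (U b b)) + 2 * I (w * ipE m (U a b) (U b a))
    - I (w * ipE m (U b a) (U b a))

/-- The sectional curvature bound, in the form used by part B (output of G1 + G1c). -/
def Calc.Sec (C : Calc m) (U : (M →ₘ[m] ℝ) → (M →ₘ[m] ℝ) → M → E) (κ : ℝ) : Prop :=
  ∀ a ∈ C.TestI, ∀ b ∈ C.TestI, ∀ w : M →ₘ[m] ℝ, w - 1 ∈ C.TestI → 0 ≤ w →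
    κ * I (w * (C.Γ a a * C.Γ b b - C.Γ a b ^ 2)) ≤ C.RR U a b w

/-- `D b` is a pointwise bound of the Hessian of `b`, with the improved Bochner inequality
(block B0H); and the Bochner inequality with the dimension. -/
structure IsHD (C : Calc m) (K N : ℝ) (Gr : (M →ₘ[m] ℝ) → M → E)
    (U : (M →ₘ[m] ℝ) → (M →ₘ[m] ℝ) → M → E) (D : (M →ₘ[m] ℝ) → (M →ₘ[m] ℝ)) : Prop where
  nonneg : ∀ b ∈ C.Test, 0 ≤ D b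
  mem : ∀ b ∈ C.Test, MemLp (D b) 2 m
  hess : ∀ b ∈ C.Test, ∀ f ∈ C.Test, ∀ g ∈ C.Test, ∀ᵐ x ∂m,
    |C.hess b f g x| ≤ D b x * √(C.Γ f f x) * √(C.Γ g g x)
  norm : ∀ b ∈ C.Test, ∀ f ∈ C.Test, ∀ᵐ x ∂m, ‖U b f x‖ ≤ D b x * ‖Gr f x‖
  bochner : ∀ b ∈ C.TestI, ∀ w : M →ₘ[m] ℝ, w - 1 ∈ C.A → 0 ≤ w →
    I (w * D b ^ 2) ≤ C.G2 b w - K * I (w * C.Γ b b)
  bochnerN : ∀ b ∈ C.TestI, ∀ w : M →ₘ[m] ℝ, w - 1 ∈ C.A → 0 ≤ w →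
    N⁻¹ * I (w * C.lap b ^ 2) ≤ C.G2 b w - K * I (w * C.Γ b b)

/-- Standing assumptions of part B. -/
structure CtB (C : Calc m) (K N : ℝ) (Gr : (M →ₘ[m] ℝ) → M → E)
    (U : (M →ₘ[m] ℝ) → (M →ₘ[m] ℝ) → M → E) (D : (M →ₘ[m] ℝ) → (M →ₘ[m] ℝ)) : Prop where
  gam : IsGamma C
  hN : 0 < N
  be : C.BE K N
  grad : IsGrad C Gr
  hu : IsHU C Gr U
  hd : IsHD C K N Gr U D

/-- `A(t) = E|∇φ|²` -/
noncomputable def Calc.EA (C : Calc m) (ε : ℝ) (φ u : ℝ → M →ₘ[m] ℝ) (t : ℝ) : ℝ :=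
  I (rh ε φ u t * C.Γ (φ t) (φ t))

/-- `B(t) = E|∇u|²` -/
noncomputable def Calc.EB (C : Calc m) (ε : ℝ) (φ u : ℝ → M →ₘ[m] ℝ) (t : ℝ) : ℝ :=
  I (rh ε φ u t * C.Γ (u t) (u t))

/-- `E|V|²`, `V = ∇L` -/
noncomputable def Calc.EV (C : Calc m) (ε : ℝ) (φ u : ℝ → M →ₘ[m] ℝ) (t : ℝ) : ℝ :=
  I (rh ε φ u t * C.Γ (LL ε φ u t) (LL ε φ u t))

/-- `E|V|⁴` -/
noncomputable def Calc.EV4 (C : Calc m) (ε : ℝ) (φ u : ℝ → M →ₘ[m] ℝ) (t : ℝ) : ℝ :=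
  I (rh ε φ u t * C.Γ (LL ε φ u t) (LL ε φ u t) ^ 2)

/-- the entropy `∫ (ρ log ρ - ρ + 1) dm` -/
noncomputable def EntB (m : Measure M) (ε : ℝ) (φ u : ℝ → M →ₘ[m] ℝ) (t : ℝ) : ℝ :=
  I (rh ε φ u t * LL ε φ u t - (rh ε φ u t - 1))

/-- `S(t) = E Hess θ(∇h,∇h)` -/
noncomputable def Calc.SS (C : Calc m) (ε : ℝ) (φ u : ℝ → M →ₘ[m] ℝ) (h : M →ₘ[m] ℝ) (t : ℝ) : ℝ :=
  I (rh ε φ u t * C.hess (th φ u t) h h)

/-- `S'(t)`, as it comes out of the differentiation (block B6t) -/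
noncomputable def Calc.S1 (C : Calc m) (ε : ℝ) (φ u : ℝ → M →ₘ[m] ℝ) (h : M →ₘ[m] ℝ) (t : ℝ) : ℝ :=
  C.wHc (-((2 : ℝ)⁻¹ • C.Γ (th φ u t) (th φ u t)) -
      (ε ^ 2 / 8) • ((2 : ℝ) • C.lap (LL ε φ u t) + C.Γ (LL ε φ u t) (LL ε φ u t))) h (rh ε φ u t)
    - I ((C.Γ (th φ u t) (rh ε φ u t - 1) + rh ε φ u t * C.lap (th φ u t))
        * C.hess (th φ u t) h h)

/-- The right hand side of the Riccati inequality: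
`E[2 Hess θ(X,Hess h(v)) - |Hess θ(X)|² - κ(|X|²|v|² - ⟨X,v⟩²)]`, `X = ∇h`, `v = ∇θ`. -/
noncomputable def Calc.FR (C : Calc m) (U : (M →ₘ[m] ℝ) → (M →ₘ[m] ℝ) → M → E) (κ ε : ℝ)
    (φ u : ℝ → M →ₘ[m] ℝ) (h : M →ₘ[m] ℝ) (t : ℝ) : ℝ :=
  2 * I (rh ε φ u t * ipE m (U h (th φ u t)) (U (th φ u t) h))
    - I (rh ε φ u t * ipE m (U (th φ u t) h) (U (th φ u t) h))
    - κ * I (rh ε φ u t * (C.Γ h h * C.Γ (th φ u t) (th φ u t) - C.Γ h (th φ u t) ^ 2))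

/-- `⟨dd,z⟩ = -∫⟨∇z, Δh ∇h + ∇|∇h|²/2⟩`, `z ∈ W` -/
noncomputable def Calc.ddh (C : Calc m) (h z : M →ₘ[m] ℝ) : ℝ :=
  -I (C.lap h * C.Γ z h + (2 : ℝ)⁻¹ • C.Γ z (C.Γ h h))

/-- `K_t` of B6: `-⟨Hess ΔL(X,X),ρ⟩ + E(ΔL + |V|²) Hess L(X,X)`, for `w = exp L`. -/
noncomputable def Calc.Kt (C : Calc m) (h L w : M →ₘ[m] ℝ) : ℝ :=
  -C.wHc (C.lap L) h w + I (w * (C.lap L + C.Γ L L) * C.hess L h h)

/-- the error term of B6 (times `ε²/4`): `K_t - κE(..) + 2E Hess L(Hess h(V),X) - E|∇_X V|²` -/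
noncomputable def Calc.Er (C : Calc m) (U : (M →ₘ[m] ℝ) → (M →ₘ[m] ℝ) → M → E) (κ : ℝ)
    (h L w : M →ₘ[m] ℝ) : ℝ :=
  C.Kt h L w - κ * I (w * (C.Γ h h * C.Γ L L - C.Γ h L ^ 2))
    + 2 * I (w * ipE m (U h L) (U L h)) - I (w * ipE m (U L h) (U L h))

end defs

/-! ### blocks -/

/-- BHD (existence of the Hessian bounds). -/
def Blk_BHD : Prop :=
  ∀ (M : Type u) [MeasurableSpace M] [MeasurableSpace.CountablyGenerated M] (m : Measure M)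
    [SigmaFinite m] (C : Calc m) (K N : ℝ), IsGamma C → 0 < N → C.BE K N →
    ∀ (E : Type v) [NormedAddCommGroup E] [InnerProductSpace ℝ E] [CompleteSpace E]
      (Gr : (M →ₘ[m] ℝ) → M → E) (U : (M →ₘ[m] ℝ) → (M →ₘ[m] ℝ) → M → E),
      IsGrad C Gr → IsHU C Gr U → ∃ D, IsHD C K N Gr U D

/-- BSec (the sectional curvature bound for weights that are constant at infinity; the hypothesis
is the output of G1). -/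
def Blk_BSec : Prop :=
  ∀ (M : Type u) [MeasurableSpace M] (m : Measure M) [SigmaFinite m] (C : Calc m) (K κ : ℝ),
    IsGamma C → C.BEi K →
    ∀ (E : Type v) [NormedAddCommGroup E] [InnerProductSpace ℝ E] [CompleteSpace E]
      (Gr : (M →ₘ[m] ℝ) → M → E) (U : (M →ₘ[m] ℝ) → (M →ₘ[m] ℝ) → M → E),
      IsGrad C Gr → IsHU C Gr U →
      (∀ a ∈ C.Test, ∀ b ∈ C.Test, ∀ f ∈ C.Test, 0 ≤ f → 0 ≤ I (C.rkI (UUof m U) κ a b b a f)) →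
      C.Sec U κ

/-- B0 (log calculus + semigroup): regularity in time of the potentials of a pair. -/
def Blk_B0 : Prop :=
  ∀ (M : Type u) [MeasurableSpace M] (m : Measure M) [SigmaFinite m] (C : Calc m) (K : ℝ)
    (P : ℝ → (M →ₘ[m] ℝ) → (M →ₘ[m] ℝ)), IsGamma C → C.BEi K → Heat C K P →
    ∀ (ε a b : ℝ) (φ u : ℝ → M →ₘ[m] ℝ), Pair C P ε a b φ u → C.Reg ε a b φ u

/-- B0r (derived regularity): density, `L`, `θ` of a regular pair. -/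
def Blk_B0r : Prop :=
  ∀ (M : Type u) [MeasurableSpace M] (m : Measure M) [SigmaFinite m] (C : Calc m) (K : ℝ),
    IsGamma C → C.BEi K → ∀ (ε a b : ℝ) (φ u : ℝ → M →ₘ[m] ℝ), C.Reg ε a b φ u →
    (∀ t ∈ Icc a b, LL ε φ u t ∈ C.TestI ∧ th φ u t ∈ C.TestI ∧ rh ε φ u t - 1 ∈ C.TestI ∧
      (∀ g ∈ C.W, C.Γ (rh ε φ u t - 1) g = rh ε φ u t * C.Γ (LL ε φ u t) g) ∧
      C.lap (rh ε φ u t - 1) =
        rh ε φ u t * (C.lap (LL ε φ u t) + C.Γ (LL ε φ u t) (LL ε φ u t))) ∧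
    (∀ t ∈ Icc a b, C.DerW (Icc a b) (rh ε φ u)
      (-(rh ε φ u t * C.lap (th φ u t) + C.Γ (th φ u t) (rh ε φ u t - 1))) t) ∧
    (∀ t ∈ Icc a b, C.DerW (Icc a b) (th φ u)
      (-((2 : ℝ)⁻¹ • C.Γ (th φ u t) (th φ u t)) -
      (ε ^ 2 / 8) • ((2 : ℝ) • C.lap (LL ε φ u t) + C.Γ (LL ε φ u t) (LL ε φ u t))) t) ∧
    (∀ t ∈ Icc a b, C.CtW (Icc a b) (fun s => C.lap (rh ε φ u s - 1)) t) ∧
    ∃ B : ℝ, ∀ t ∈ Icc a b, ∀ᵐ x ∂m, B⁻¹ ≤ rh ε φ u t x ∧ rh ε φ u t x ≤ B ∧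
      C.Γ (rh ε φ u t - 1) (rh ε φ u t - 1) x ≤ B ∧ |C.lap (rh ε φ u t - 1) x| ≤ B

/-- B0c (the Hessian fields of `θ`, `L` are continuous curves in `L²(M;E)`). -/
def Blk_B0c : Prop :=
  ∀ (M : Type u) [MeasurableSpace M] (m : Measure M) [SigmaFinite m] (C : Calc m) (K : ℝ)
    (E : Type v) [NormedAddCommGroup E] [InnerProductSpace ℝ E] [CompleteSpace E]
      (Gr : (M →ₘ[m] ℝ) → M → E)
    (U : (M →ₘ[m] ℝ) → (M →ₘ[m] ℝ) → M → E),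
    IsGamma C → C.BEi K → IsGrad C Gr → IsHU C Gr U →
    ∀ (ε a b : ℝ) (φ u : ℝ → M →ₘ[m] ℝ), C.Reg ε a b φ u → ∀ h ∈ C.TestI, ∀ t ∈ Icc a b,
      Tendsto (fun s => eLpNorm (fun x => U (th φ u s) h x - U (th φ u t) h x) 2 m)
        (𝓝[Icc a b] t) (𝓝 0) ∧
      Tendsto (fun s => eLpNorm (fun x => U h (th φ u s) x - U h (th φ u t) x) 2 m)
        (𝓝[Icc a b] t) (𝓝 0) ∧
      Tendsto (fun s => eLpNorm (fun x => U (LL ε φ u s) h x - U (LL ε φ u t) h x) 2 m)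
        (𝓝[Icc a b] t) (𝓝 0) ∧
      Tendsto (fun s => eLpNorm (fun x => Gr (th φ u s) x - Gr (th φ u t) x) 2 m)
        (𝓝[Icc a b] t) (𝓝 0)

/-- B1 (derivatives of the energies and of the entropy). -/
def Blk_B1 : Prop :=
  ∀ (M : Type u) [MeasurableSpace M] (m : Measure M) [SigmaFinite m] (C : Calc m) (K : ℝ),
    IsGamma C → C.BEi K → ∀ (ε a b : ℝ) (φ u : ℝ → M →ₘ[m] ℝ), C.Reg ε a b φ u →
    (∀ t ∈ Icc a b, HasDerivWithinAt (C.EA ε φ u) (ε * C.G2 (φ t) (rh ε φ u t)) (Icc a b) t) ∧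
    (∀ t ∈ Icc a b, HasDerivWithinAt (C.EB ε φ u) (-(ε * C.G2 (u t) (rh ε φ u t))) (Icc a b) t) ∧
    (∀ t ∈ Icc a b, I (rh ε φ u t * C.Γ (φ t) (u t)) = I (rh ε φ u b * C.Γ (φ b) (u b))) ∧
    (∀ t ∈ Icc a b, HasDerivWithinAt (EntB m ε φ u) ((C.EA ε φ u t - C.EB ε φ u t) / (2 * ε))
      (Icc a b) t) ∧
    ContinuousOn (fun t => C.G2 (φ t) (rh ε φ u t)) (Icc a b) ∧
    ContinuousOn (fun t => C.G2 (u t) (rh ε φ u t)) (Icc a b) ∧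
    ContinuousOn (C.EV ε φ u) (Icc a b) ∧ ContinuousOn (C.EV4 ε φ u) (Icc a b) ∧
    (∀ t ∈ Icc a b, ε ^ 2 * C.EV ε φ u t = C.EA ε φ u t + C.EB ε φ u t
      - 2 * I (rh ε φ u t * C.Γ (φ t) (u t))) ∧
    (∀ t ∈ Icc a b, C.G2 (φ t) (rh ε φ u t) + C.G2 (u t) (rh ε φ u t) =
      2 * C.G2 (th φ u t) (rh ε φ u t) + ε ^ 2 / 2 * C.G2 (LL ε φ u t) (rh ε φ u t))

/-- B2 (entropy convexity argument): `ε E|V|² ≤ c` up to time `1`. -/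
def Blk_B2 : Prop :=
  ∀ K N s s' Λ : ℝ, 0 < s → s < s' → s' < 1 → ∃ c : ℝ,
    ∀ (M : Type u) [MeasurableSpace M] (m : Measure M) [SigmaFinite m] (C : Calc m)
      (E : Type v) [NormedAddCommGroup E] [InnerProductSpace ℝ E] [CompleteSpace E]
      (Gr : (M →ₘ[m] ℝ) → M → E)
      (U : (M →ₘ[m] ℝ) → (M →ₘ[m] ℝ) → M → E)
      (D : (M →ₘ[m] ℝ) → (M →ₘ[m] ℝ)), CtB C K N Gr U D →
    ∀ (ε : ℝ) (l : M →ₘ[m] ℝ) (φ u : ℝ → M →ₘ[m] ℝ), LvB C ε s Λ l φ u → ∀ t ∈ Icc s' 1,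
      ε * C.EV ε φ u t ≤ c ∧ |C.EA ε φ u t - C.EB ε φ u t| ≤ c * ε ∧ C.EA ε φ u t ≤ c ∧
      |C.EA ε φ u t - C.EA ε φ u 1| ≤ c * ε

/-- B3 (integrated Hessian bound); `e` is a continuous majorant. -/
def Blk_B3 : Prop :=
  ∀ K N s s' Λ : ℝ, 0 < s → s < s' → s' < 1 → ∃ c : ℝ,
    ∀ (M : Type u) [MeasurableSpace M] (m : Measure M) [SigmaFinite m] (C : Calc m)
      (E : Type v) [NormedAddCommGroup E] [InnerProductSpace ℝ E] [CompleteSpace E]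
      (Gr : (M →ₘ[m] ℝ) → M → E)
      (U : (M →ₘ[m] ℝ) → (M →ₘ[m] ℝ) → M → E)
      (D : (M →ₘ[m] ℝ) → (M →ₘ[m] ℝ)), CtB C K N Gr U D →
    ∀ (ε : ℝ) (l : M →ₘ[m] ℝ) (φ u : ℝ → M →ₘ[m] ℝ), LvB C ε s Λ l φ u →
      ∃ e : ℝ → ℝ, ContinuousOn e (Icc s' 1) ∧ ∫ t in s'..1, e t ≤ c ∧ ∀ t ∈ Icc s' 1,
        I (rh ε φ u t * D (th φ u t) ^ 2) + ε ^ 2 * I (rh ε φ u t * D (LL ε φ u t) ^ 2)
          + ε ^ 2 * I (rh ε φ u t * C.lap (LL ε φ u t) ^ 2) ≤ e t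

/-- B4 (fourth moment of `V`). -/
def Blk_B4 : Prop :=
  ∀ K N s s' Λ : ℝ, 0 < s → s < s' → s' < 1 → ∃ c : ℝ,
    ∀ (M : Type u) [MeasurableSpace M] (m : Measure M) [SigmaFinite m] (C : Calc m)
      (E : Type v) [NormedAddCommGroup E] [InnerProductSpace ℝ E] [CompleteSpace E]
      (Gr : (M →ₘ[m] ℝ) → M → E)
      (U : (M →ₘ[m] ℝ) → (M →ₘ[m] ℝ) → M → E)
      (D : (M →ₘ[m] ℝ) → (M →ₘ[m] ℝ)), CtB C K N Gr U D →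
    ∀ (ε : ℝ) (l : M →ₘ[m] ℝ) (φ u : ℝ → M →ₘ[m] ℝ), LvB C ε s Λ l φ u →
      ∫ t in s'..1, ε ^ 2 * C.EV4 ε φ u t ≤ c

/-- B6a (static identity I1). -/
def Blk_B6a : Prop :=
  ∀ (M : Type u) [MeasurableSpace M] (m : Measure M) [SigmaFinite m] (C : Calc m) (K : ℝ)
    (E : Type v) [NormedAddCommGroup E] [InnerProductSpace ℝ E] [CompleteSpace E]
      (Gr : (M →ₘ[m] ℝ) → M → E)
    (U : (M →ₘ[m] ℝ) → (M →ₘ[m] ℝ) → M → E),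
    IsGamma C → C.BEi K → IsGrad C Gr → IsHU C Gr U →
    ∀ h ∈ C.TestI, ∀ θ ∈ C.TestI, ∀ w : M →ₘ[m] ℝ, w - 1 ∈ C.TestI →
      C.RR U h θ w = C.wHc ((2 : ℝ)⁻¹ • C.Γ θ θ) h w
        + I ((C.Γ θ (w - 1) + w * C.lap θ) * C.hess θ h h)
        + 2 * I (w * ipE m (U h θ) (U θ h)) - I (w * ipE m (U θ h) (U θ h))

/-- B6b (static identity I2, formula for `K_t`), `w = exp L`. -/
def Blk_B6b : Prop :=
  ∀ (M : Type u) [MeasurableSpace M] (m : Measure M) [SigmaFinite m] (C : Calc m) (K : ℝ),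
    IsGamma C → C.BEi K → ∀ h ∈ C.TestI, ∀ L ∈ C.TestI,
      C.Kt h L (ex L) =
        I (ex L * (-(C.Γ L L * (C.Γ L h * C.lap h + (2 : ℝ)⁻¹ • C.Γ L (C.Γ h h)))
          + (2 : ℝ) • (C.Γ L h * C.hess h L L)
          - (2 : ℝ) • (C.lap L * (C.Γ L h * C.lap h + (2 : ℝ)⁻¹ • C.Γ L (C.Γ h h)))))
        - C.ddh h (ex L * C.lap L)

/-- B6t (derivative of `S`). -/
def Blk_B6t : Prop :=
  ∀ (M : Type u) [MeasurableSpace M] (m : Measure M) [SigmaFinite m] (C : Calc m) (K : ℝ)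
    (E : Type v) [NormedAddCommGroup E] [InnerProductSpace ℝ E] [CompleteSpace E]
      (Gr : (M →ₘ[m] ℝ) → M → E)
    (U : (M →ₘ[m] ℝ) → (M →ₘ[m] ℝ) → M → E),
    IsGamma C → C.BEi K → IsGrad C Gr → IsHU C Gr U →
    ∀ (ε a b : ℝ) (φ u : ℝ → M →ₘ[m] ℝ), C.Reg ε a b φ u → ∀ h ∈ C.TestI,
    (∀ t ∈ Icc a b, HasDerivWithinAt (C.SS ε φ u h) (C.S1 ε φ u h t) (Icc a b) t) ∧
    ContinuousOn (C.S1 ε φ u h) (Icc a b) ∧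
    ∀ κ : ℝ, ContinuousOn (C.FR U κ ε φ u h) (Icc a b)

/-- B6d (the distribution `dd` is bounded below: Bochner for `h`): with
`a' = (Δh)² + 2⟨∇h,∇Δh⟩ + K|∇h|²` one has `⟨dd,z⟩ ≥ ∫ a' z` for `z ≥ 0`, also when `z` is a
constant `c` at infinity (`⟨dd,c⟩ = 0`). -/
def Blk_B6d : Prop :=
  ∀ (M : Type u) [MeasurableSpace M] (m : Measure M) [SigmaFinite m] (C : Calc m) (K : ℝ),
    IsGamma C → C.BEi K → ∀ h ∈ C.TestI, ∀ (c : ℝ) (z : M →ₘ[m] ℝ),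
      z - c • (1 : M →ₘ[m] ℝ) ∈ C.A → 0 ≤ z →
      I (z * (C.lap h ^ 2 + (2 : ℝ) • C.Γ h (C.lap h) + K • C.Γ h h))
        ≤ C.ddh h (z - c • (1 : M →ₘ[m] ℝ))

/-- B6x (error terms of B6). -/
def Blk_B6x : Prop :=
  ∀ (M : Type u) [MeasurableSpace M] (m : Measure M) [SigmaFinite m] (C : Calc m)
    (K N s s' Λ κ : ℝ)
    (E : Type v) [NormedAddCommGroup E] [InnerProductSpace ℝ E] [CompleteSpace E]
      (Gr : (M →ₘ[m] ℝ) → M → E)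
    (U : (M →ₘ[m] ℝ) → (M →ₘ[m] ℝ) → M → E)
    (D : (M →ₘ[m] ℝ) → (M →ₘ[m] ℝ)), CtB C K N Gr U D → 0 < s → s < s' → s' < 1 →
    ∀ h ∈ C.TestI, ∃ err : ℝ → ℝ, Tendsto err (𝓝[>] 0) (𝓝 0) ∧
    ∀ (ε : ℝ) (l : M →ₘ[m] ℝ) (φ u : ℝ → M →ₘ[m] ℝ), LvB C ε s Λ l φ u →
      ∃ r : ℝ → ℝ, IntervalIntegrable r volume s' 1 ∧ (∀ t ∈ Ico s' 1, 0 ≤ r t ∧
        ε ^ 2 / 4 * C.Er U κ h (LL ε φ u t) (rh ε φ u t) ≤ r t) ∧ ∫ t in s'..1, r t ≤ err ε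

/-- B6 (the Riccati inequality at level `ε`). -/
def Blk_B6 : Prop :=
  ∀ (M : Type u) [MeasurableSpace M] (m : Measure M) [SigmaFinite m] (C : Calc m)
    (K N s s' Λ κ : ℝ)
    (E : Type v) [NormedAddCommGroup E] [InnerProductSpace ℝ E] [CompleteSpace E]
      (Gr : (M →ₘ[m] ℝ) → M → E)
    (U : (M →ₘ[m] ℝ) → (M →ₘ[m] ℝ) → M → E)
    (D : (M →ₘ[m] ℝ) → (M →ₘ[m] ℝ)), CtB C K N Gr U D → C.Sec U κ → 0 < s → s < s' → s' < 1 →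
    ∀ h ∈ C.TestI, ∃ err : ℝ → ℝ, Tendsto err (𝓝[>] 0) (𝓝 0) ∧
    ∀ (ε : ℝ) (l : M →ₘ[m] ℝ) (φ u : ℝ → M →ₘ[m] ℝ), LvB C ε s Λ l φ u →
      ContinuousOn (C.FR U κ ε φ u h) (Icc s' 1) ∧
      ∀ t₁ t₂, s' ≤ t₁ → t₁ ≤ t₂ → t₂ ≤ 1 →
        C.SS ε φ u h t₂ - C.SS ε φ u h t₁ ≤ (∫ t in t₁..t₂, C.FR U κ ε φ u h t) + err ε

/-- B7 (derivative of `E⟨∇b,v⟩`), identity. -/
def Blk_B7 : Prop :=
  ∀ (M : Type u) [MeasurableSpace M] (m : Measure M) [SigmaFinite m] (C : Calc m) (K : ℝ),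
    IsGamma C → C.BEi K → ∀ (ε a b : ℝ) (φ u : ℝ → M →ₘ[m] ℝ), C.Reg ε a b φ u →
    ∀ g ∈ C.Test, (∀ t ∈ Icc a b, HasDerivWithinAt (fun t => I (rh ε φ u t * C.Γ g (th φ u t)))
      (I (rh ε φ u t * C.hess g (th φ u t) (th φ u t))
        - ε ^ 2 / 4 * I (rh ε φ u t * C.hess g (LL ε φ u t) (LL ε φ u t))
        - ε ^ 2 / 4 * I (rh ε φ u t * C.Γ (C.lap g) (LL ε φ u t))) (Icc a b) t) ∧
      ContinuousOn (fun t => I (rh ε φ u t * C.hess g (th φ u t) (th φ u t))) (Icc a b) ∧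
      ContinuousOn (fun t => I (rh ε φ u t * C.hess g (LL ε φ u t) (LL ε φ u t))) (Icc a b) ∧
      ContinuousOn (fun t => I (rh ε φ u t * C.Γ (C.lap g) (LL ε φ u t))) (Icc a b)

/-- B7x (derivative of `E⟨∇b,v⟩`), form for the limit. -/
def Blk_B7x : Prop :=
  ∀ (M : Type u) [MeasurableSpace M] (m : Measure M) [SigmaFinite m] (C : Calc m)
    (K N s s' Λ : ℝ)
    (E : Type v) [NormedAddCommGroup E] [InnerProductSpace ℝ E] [CompleteSpace E]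
      (Gr : (M →ₘ[m] ℝ) → M → E)
    (U : (M →ₘ[m] ℝ) → (M →ₘ[m] ℝ) → M → E)
    (D : (M →ₘ[m] ℝ) → (M →ₘ[m] ℝ)), CtB C K N Gr U D → 0 < s → s < s' → s' < 1 →
    ∀ g ∈ C.Test, ∃ err : ℝ → ℝ, Tendsto err (𝓝[>] 0) (𝓝 0) ∧
    ∀ (ε : ℝ) (l : M →ₘ[m] ℝ) (φ u : ℝ → M →ₘ[m] ℝ), LvB C ε s Λ l φ u →
      ∀ t₁ t₂, s' ≤ t₁ → t₁ ≤ t₂ → t₂ ≤ 1 →
        |I (rh ε φ u t₂ * C.Γ g (th φ u t₂)) - I (rh ε φ u t₁ * C.Γ g (th φ u t₁))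
          - ∫ t in t₁..t₂, I (rh ε φ u t * C.hess g (th φ u t) (th φ u t))| ≤ err ε

/-- B8a (two final densities, same `u`), identity: `w = exp ((φ' - φ)/ε)`. -/
def Blk_B8a : Prop :=
  ∀ (M : Type u) [MeasurableSpace M] (m : Measure M) [SigmaFinite m] (C : Calc m) (K : ℝ),
    IsGamma C → C.BEi K → ∀ (ε a b : ℝ) (φ φ' u : ℝ → M →ₘ[m] ℝ),
    C.Reg ε a b φ u → C.Reg ε a b φ' u →
    (∀ t ∈ Icc a b, rh ε φ' φ t - 1 ∈ C.TestI ∧ rh ε φ' u t = rh ε φ' φ t * rh ε φ u t) ∧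
    (∀ t ∈ Icc a b, HasDerivWithinAt (fun t => I (rh ε φ u t * (rh ε φ' φ t - 1) ^ 2))
      (ε * I (rh ε φ u t * C.Γ (rh ε φ' φ t - 1) (rh ε φ' φ t - 1))) (Icc a b) t) ∧
    ContinuousOn (fun t => I (rh ε φ u t * C.Γ (rh ε φ' φ t - 1) (rh ε φ' φ t - 1))) (Icc a b)

/-- B8b (two final densities, same `u`): the Hessians of `θ` and `θ'` against `ρ'`. -/
def Blk_B8b : Prop :=
  ∀ (M : Type u) [MeasurableSpace M] (m : Measure M) [SigmaFinite m] (C : Calc m)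
    (K N s s' Λ : ℝ)
    (E : Type v) [NormedAddCommGroup E] [InnerProductSpace ℝ E] [CompleteSpace E]
      (Gr : (M →ₘ[m] ℝ) → M → E)
    (U : (M →ₘ[m] ℝ) → (M →ₘ[m] ℝ) → M → E)
    (D : (M →ₘ[m] ℝ) → (M →ₘ[m] ℝ)), CtB C K N Gr U D → 0 < s → s < s' → s' < 1 →
    ∀ h ∈ C.TestI, ∀ β ∈ C.TestI, ∃ c : ℝ,
    ∀ (ε : ℝ) (l l' : M →ₘ[m] ℝ) (φ φ' u : ℝ → M →ₘ[m] ℝ),
      LvB C ε s Λ l φ u → LvB C ε s Λ l' φ' u →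
      (∀ t ∈ Icc s 1, ∀ᵐ x ∂m, |φ' t x - φ t x| ≤ Λ * ε) → ∀ t ∈ Icc s' 1,
        |I (β * rh ε φ' u t * (C.hess (th φ' u t) h h - C.hess (th φ u t) h h))| ≤
          c * √(ε * I (rh ε φ u t * C.Γ (rh ε φ' φ t - 1) (rh ε φ' φ t - 1)))

end Vale.Agent.P233
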