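import Vale.Agent.P233.Gig.Defs

/-! P233, part E: interface (avoidance of the degenerate set, Riccati comparison along almost every
curve, weak Hessian bound of the distance functions). Drafted by helper254. -/

set_option linter.all false

open MeasureTheory Filter Topology Set
open scoped ENNReal NNReal InnerProductSpace

universe u v

namespace Vale.Agent.P233

/-! ### real functions -/

/-- `∑ cᵢ vᵢ` with rational coefficients -/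
noncomputable def cmb {V : Type*} [AddCommGroup V] [Module ℝ V] (w : ℕ → V) (c : ℕ →₀ ℚ) : V :=
  c.sum fun i a => (a : ℝ) • w i

/-- `∑ cᵢ vᵢ` with real coefficients -/
noncomputable def cmr {V : Type*} [AddCommGroup V] [Module ℝ V] (w : ℕ → V) (c : ℕ →₀ ℝ) : V :=
  c.sum fun i a => a • w i

/-- `f t = c - ∫_t^1 g` for a.e. `t ∈ (0,1)`, and `g` is integrable on `[s,1]`, `0 < s` -/
def ACto (f : ℝ → ℝ) (c : ℝ) (g : ℝ → ℝ) : Prop :=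
  (∀ s ∈ Ioo (0 : ℝ) 1, IntervalIntegrable g volume s 1) ∧
    ∀ᵐ t ∂(volume.restrict (Ioo (0 : ℝ) 1)), f t = c - ∫ r in t..1, g r

/-- the infinite matrix `G` has rank `k` (for positive semidefinite `G`: principal minors) -/
def RankEq (G : ℕ → ℕ → ℝ) (k : ℕ) : Prop :=
  (∃ s : Finset ℕ, s.card = k ∧ (Matrix.of fun i j : s => G i j).det ≠ 0) ∧
    ∀ s : Finset ℕ, s.card = k + 1 → (Matrix.of fun i j : s => G i j).det = 0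

/-- The comparison field `M(t) = (1/t) v̂⊗v̂ + l ct_κ(lt) (1 - v̂⊗v̂)` (`M(t) = 1/t` if `l = 0`),
evaluated on a vector `g` with `|g|² = A`, `⟨g,v⟩ = B`, where `|v| = l`. -/
noncomputable def Mv (κ l t A B : ℝ) : ℝ :=
  open Classical in if l = 0 then A / t
  else B ^ 2 / l ^ 2 / t + l * cs κ (l * t) / sn κ (l * t) * (A - B ^ 2 / l ^ 2)

/-! ### one curve (E4, E5) -/

section curve

variable {E : Type v} [NormedAddCommGroup E] [InnerProductSpace ℝ E]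

/-- The data along one curve: `g i = ∇eᵢ`, `a i = Hess eᵢ(v)`, `b i = H(∇eᵢ)`, the velocity `v`, the
continuous Gram matrix `G`. -/
structure CurveData (κ l : ℝ) (g a b : ℕ → ℝ → E) (v : ℝ → E) (Λ : ℝ → ℝ)
    (G : ℕ → ℕ → ℝ → ℝ) : Prop where
  l_nonneg : 0 ≤ l
  l_small : √κ * l < Real.pi
  mg : ∀ i, AEStronglyMeasurable (g i) (volume.restrict (Ioo (0 : ℝ) 1))
  ma : ∀ i, AEStronglyMeasurable (a i) (volume.restrict (Ioo (0 : ℝ) 1))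
  mb : ∀ i, AEStronglyMeasurable (b i) (volume.restrict (Ioo (0 : ℝ) 1))
  mv : AEStronglyMeasurable v (volume.restrict (Ioo (0 : ℝ) 1))
  mΛ : AEStronglyMeasurable Λ (volume.restrict (Ioo (0 : ℝ) 1))
  vnorm : ∀ᵐ t ∂(volume.restrict (Ioo (0 : ℝ) 1)), ‖v t‖ = l
  gram : ∀ i j, ∀ᵐ t ∂(volume.restrict (Ioo (0 : ℝ) 1)), G i j t = ⟪g i t, g j t⟫_ℝ
  /-- `t ↦ G i j t` is locally absolutely continuous on `(0,1)`, for every `t` -/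
  gram_ac : ∀ i j, ∀ s ∈ Ioo (0 : ℝ) 1, ∀ t ∈ Ioo (0 : ℝ) 1,
    G i j t - G i j s = ∫ r in s..t, (⟪a i r, g j r⟫_ℝ + ⟪g i r, a j r⟫_ℝ)
  gram_int : ∀ i j, ∀ s ∈ Ioo (0 : ℝ) 1, ∀ t ∈ Ioo (0 : ℝ) 1,
    IntervalIntegrable (fun r => ⟪a i r, g j r⟫_ℝ + ⟪g i r, a j r⟫_ℝ) volume s t
  p_ac : ∀ i, ∃ p : ℝ → ℝ, (∀ᵐ t ∂(volume.restrict (Ioo (0 : ℝ) 1)), p t = ⟪g i t, v t⟫_ℝ) ∧
    ∀ s ∈ Ioo (0 : ℝ) 1, ∀ t ∈ Ioo (0 : ℝ) 1, p t - p s = ∫ r in s..t, ⟪a i r, v r⟫_ℝ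
  a_sq : ∀ i, ∀ s ∈ Ioo (0 : ℝ) 1, ∀ t ∈ Ioo (0 : ℝ) 1,
    IntervalIntegrable (fun r => ‖a i r‖ ^ 2) volume s t
  Λ_sq : ∀ s ∈ Ioo (0 : ℝ) 1, ∀ t ∈ Ioo (0 : ℝ) 1, IntervalIntegrable (fun r => Λ r ^ 2) volume s t
  v_span : ∀ᵐ t ∂(volume.restrict (Ioo (0 : ℝ) 1)),
    v t ∈ (Submodule.span ℝ (range fun j => g j t)).topologicalClosure
  a_span : ∀ᵐ t ∂(volume.restrict (Ioo (0 : ℝ) 1)), ∀ i,
    a i t ∈ (Submodule.span ℝ (range fun j => g j t)).topologicalClosure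
  b_span : ∀ᵐ t ∂(volume.restrict (Ioo (0 : ℝ) 1)), ∀ i,
    b i t ∈ (Submodule.span ℝ (range fun j => g j t)).topologicalClosure
  symm : ∀ᵐ t ∂(volume.restrict (Ioo (0 : ℝ) 1)), ∀ i j, ⟪b i t, g j t⟫_ℝ = ⟪g i t, b j t⟫_ℝ
  bound : ∀ᵐ t ∂(volume.restrict (Ioo (0 : ℝ) 1)), ∀ c : ℕ →₀ ℝ,
    ‖cmr (fun i => b i t) c‖ ≤ Λ t * ‖cmr (fun i => g i t) c‖
  /-- E3 -/
  rank : ∃ k, ∀ t ∈ Ioo (0 : ℝ) 1, RankEq (fun i j => G i j t) k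
  ricc : ∀ c : ℕ →₀ ℚ, ∀ᵐ s ∂(volume.restrict (Ioo (0 : ℝ) 1)),
    ∀ᵐ t ∂(volume.restrict (Ioo s 1)),
    ⟪cmb (fun i => b i t) c, cmb (fun i => g i t) c⟫_ℝ
      - ⟪cmb (fun i => b i s) c, cmb (fun i => g i s) c⟫_ℝ
      ≤ ∫ r in s..t, (2 * ⟪cmb (fun i => b i r) c, cmb (fun i => a i r) c⟫_ℝ
          - ‖cmb (fun i => b i r) c‖ ^ 2
          - κ * (‖cmb (fun i => g i r) c‖ ^ 2 * l ^ 2 - ⟪cmb (fun i => g i r) c, v r⟫_ℝ ^ 2))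

/-- E4 + E5: matrix Riccati comparison along one curve (pure real analysis). -/
def Blk_E45 : Prop :=
  ∀ {E : Type} [NormedAddCommGroup E] [InnerProductSpace ℝ E] [CompleteSpace E]
    (κ l : ℝ) (g a b : ℕ → ℝ → E) (v : ℝ → E) (Λ : ℝ → ℝ) (G : ℕ → ℕ → ℝ → ℝ),
    CurveData κ l g a b v Λ G → ∀ᵐ t ∂(volume.restrict (Ioo (0 : ℝ) 1)), ∀ c : ℕ →₀ ℚ,
      ⟪cmb (fun i => b i t) c, cmb (fun i => g i t) c⟫_ℝ
        ≤ Mv κ l t (‖cmb (fun i => g i t) c‖ ^ 2) ⟪cmb (fun i => g i t) c, v t⟫_ℝ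

end curve

/-! ### static data -/

section stat

variable {M : Type u} [MetricSpace M] [MeasurableSpace M] {m : Measure M}
variable {E : Type v} [NormedAddCommGroup E] [InnerProductSpace ℝ E]

/-- Gradients `Gr f : M → E`, the Hessians of test functions as measurable fields of symmetric
bounded operators `HO f x` (`IsHess` of `Gig/Defs`), and a sequence `e` of functions in `TestI`,
closed under rational combinations and dense in the graph norm (helper326's block FD). -/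
structure Stat (C : Calc m) (Gr : (M →ₘ[m] ℝ) → M → E) (HO : (M →ₘ[m] ℝ) → M → E →L[ℝ] E)
    (e : ℕ → M →ₘ[m] ℝ) : Prop where
  grad : IsGrad C Gr
  gmeas : ∀ f ∈ C.W, StronglyMeasurable (Gr f)
  hess : IsHess C Gr HO
  testI : ∀ i, e i ∈ C.TestI
  closed : ∀ c : ℕ →₀ ℚ, ∃ j, e j = cmb e c
  dense : ∀ h ∈ C.TestI, ∀ ε > 0, ∃ i, C.nrm2 (h - e i) + I (C.lap (h - e i) ^ 2) < ε
  denseW : ∀ f ∈ C.W, ∀ ε > 0, ∃ i, C.nrm2 (f - e i) < ε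

/-- T1: existence of the static data. -/
def Blk_T1 : Prop :=
  ∀ {M : Type u} [MetricSpace M] [MeasurableSpace M] [BorelSpace M] [CompleteSpace M]
    [SecondCountableTopology M] (m : Measure M) (K N : ℝ), Std m K N →
    ∃ (E : Type) (_ : NormedAddCommGroup E) (_ : InnerProductSpace ℝ E)
    (_ : CompleteSpace E) (Gr : (M →ₘ[m] ℝ) → M → E) (HO : (M →ₘ[m] ℝ) → M → E →L[ℝ] E)
    (e : ℕ → M →ₘ[m] ℝ), Stat (sob m) Gr HO e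

/-! ### the flow with centre `p` -/

/-- the (constant) speed of the curve that ends at `x` -/
noncomputable def spd (p : M) (s₀ C₀ : ℝ) (x : M) : ℝ :=
  open Classical in if dist p x ^ 2 < 2 * C₀ * (1 + s₀) then dist p x / (1 + s₀) else 0

/-- the unit radial field `∇d_p` (in the ball that contains all moving points) -/
noncomputable def rdir (Gr : (M →ₘ[m] ℝ) → M → E) (p : M) (s₀ C₀ : ℝ) (y : M) : E :=
  Gr (cl m (dtr p √(2 * C₀ * (1 + s₀)))) y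

/-- the velocity at time `t` of the curve `t ↦ Y t x` -/
noncomputable def vel (Gr : (M →ₘ[m] ℝ) → M → E) (p : M) (s₀ C₀ : ℝ) (Y : ℝ → M → M)
    (t : ℝ) (x : M) : E := spd p s₀ C₀ x • rdir Gr p s₀ C₀ (Y t x)

/-- The flow with centre `p` (output of part C, `helper287`'s normalisation: reference time `1`,
reference measure `m`; `Y t x` is the position at time `t ∈ (0,1]` of the curve that ends at `x`).
First part: everything except the Hessian field. -/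
structure Flow (Gr : (M →ₘ[m] ℝ) → M → E) (HO : (M →ₘ[m] ℝ) → M → E →L[ℝ] E)
    (p : M) (s₀ C₀ : ℝ) (Y : ℝ → M → M) : Prop where
  hs₀ : 0 < s₀
  hC₀ : 0 < C₀
  meas : Measurable fun q : ℝ × M => Y q.1 q.2
  one : ∀ x, Y 1 x = x
  geod : ∀ᵐ x ∂m, ∀ s ∈ Ioc (0 : ℝ) 1, ∀ t ∈ Ioc (0 : ℝ) 1,
    dist (Y s x) (Y t x) = spd p s₀ C₀ x * |s - t|
  rad : ∀ᵐ x ∂m, dist p x ^ 2 < 2 * C₀ * (1 + s₀) → ∀ t ∈ Ioc (0 : ℝ) 1,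
    dist p (Y t x) = (t + s₀) / (1 + s₀) * dist p x
  comp : ∀ s ∈ Ioc (0 : ℝ) 1, ∃ A : ℝ≥0, ∀ t ∈ Icc s 1, m.map (Y t) ≤ A • m
  /-- `|∇d_p| = 1` -/
  unit : ∀ᵐ x ∂m, dist p x ^ 2 < 2 * C₀ * (1 + s₀) → ‖rdir Gr p s₀ C₀ x‖ = 1
  /-- C3(a): `d/dt b(Y_t x) = ⟨∇b,v⟩(Y_t x)` -/
  ac1 : ∀ b ∈ (sob m).W, ∀ᵐ x ∂m, ACto (fun t => b (Y t x)) (b x)
    fun t => ⟪Gr b (Y t x), vel Gr p s₀ C₀ Y t x⟫_ℝ
  /-- C3(b): `d/dt ⟨∇b,v⟩(Y_t x) = Hess b(v,v)(Y_t x)` -/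
  ac2 : ∀ b ∈ (sob m).TestI, ∀ᵐ x ∂m, ACto (fun t => ⟪Gr b (Y t x), vel Gr p s₀ C₀ Y t x⟫_ℝ)
    ⟪Gr b x, vel Gr p s₀ C₀ Y 1 x⟫_ℝ
    fun t => ⟪HO b (Y t x) (vel Gr p s₀ C₀ Y t x), vel Gr p s₀ C₀ Y t x⟫_ℝ
  /-- Lewy–Stampacchia (C0): at a.e. time `t` the velocity is a strong limit of test gradients with
  bounded Hessians, uniformly for `t ∈ [s,1-s]` -/
  ls : ∀ s ∈ Ioo (0 : ℝ) 1, ∃ A : ℝ, ∀ᵐ t ∂(volume.restrict (Ioo s (1 - s))), ∀ ε > 0,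
    ∃ h ∈ (sob m).TestI, (sob m).nrm2 h + I ((sob m).lap h ^ 2) ≤ A ∧
      ∫⁻ x, ENNReal.ofReal (‖Gr h (Y t x) - vel Gr p s₀ C₀ Y t x‖ ^ 2) ∂m ≤ ENNReal.ofReal ε

/-- Second part: the Hessian field `Hh i t y = H_t(∇eᵢ)(y)` of the limit potential (C5, C6). -/
structure FlowH (Gr : (M →ₘ[m] ℝ) → M → E) (HO : (M →ₘ[m] ℝ) → M → E →L[ℝ] E)
    (e : ℕ → M →ₘ[m] ℝ) (κ : ℝ) (p : M) (s₀ C₀ : ℝ) (Y : ℝ → M → M)
    (Hh : ℕ → ℝ → M → E) (Λ : ℝ → M → ℝ) : Prop where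
  flow : Flow Gr HO p s₀ C₀ Y
  hmeas : ∀ i, StronglyMeasurable fun q : ℝ × M => Hh i q.1 q.2
  lmeas : Measurable fun q : ℝ × M => Λ q.1 q.2
  /-- `Λ ∈ L²(ρ dt dm)` on `[s,1]` -/
  lsq : ∀ s ∈ Ioo (0 : ℝ) 1,
    ∫⁻ x, (∫⁻ t in Ioo s 1, ENNReal.ofReal (Λ t (Y t x) ^ 2)) ∂m < ∞
  bound : ∀ᵐ x ∂m, ∀ᵐ t ∂(volume.restrict (Ioo (0 : ℝ) 1)), ∀ c : ℕ →₀ ℝ,
    ‖cmr (fun i => Hh i t (Y t x)) c‖ ≤ Λ t (Y t x) * ‖cmr (fun i => Gr (e i) (Y t x)) c‖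
  symm : ∀ᵐ x ∂m, ∀ᵐ t ∂(volume.restrict (Ioo (0 : ℝ) 1)), ∀ i j,
    ⟪Hh i t (Y t x), Gr (e j) (Y t x)⟫_ℝ = ⟪Gr (e i) (Y t x), Hh j t (Y t x)⟫_ℝ
  span : ∀ᵐ x ∂m, ∀ᵐ t ∂(volume.restrict (Ioo (0 : ℝ) 1)), ∀ i,
    Hh i t (Y t x) ∈ (Submodule.span ℝ (range fun j => Gr (e j) (Y t x))).topologicalClosure
  /-- C6: Riccati inequality along almost every curve -/
  ricc : ∀ᵐ x ∂m, ∀ c : ℕ →₀ ℚ, ∀ᵐ s ∂(volume.restrict (Ioo (0 : ℝ) 1)),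
    ∀ᵐ t ∂(volume.restrict (Ioo s 1)),
    ⟪cmb (fun i => Hh i t (Y t x)) c, cmb (fun i => Gr (e i) (Y t x)) c⟫_ℝ
      - ⟪cmb (fun i => Hh i s (Y s x)) c, cmb (fun i => Gr (e i) (Y s x)) c⟫_ℝ
      ≤ ∫ r in s..t, (2 * ⟪cmb (fun i => Hh i r (Y r x)) c,
            cmb (fun i => HO (e i) (Y r x) (vel Gr p s₀ C₀ Y r x)) c⟫_ℝ
          - ‖cmb (fun i => Hh i r (Y r x)) c‖ ^ 2
          - κ * (‖cmb (fun i => Gr (e i) (Y r x)) c‖ ^ 2 * spd p s₀ C₀ x ^ 2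
              - ⟪cmb (fun i => Gr (e i) (Y r x)) c, vel Gr p s₀ C₀ Y r x⟫_ℝ ^ 2))
  /-- C6, end point: `∫ w Hess u₁(∇h,∇h) ≤ ∫ w(x) H_s(∇h,∇h)(Y_s x) + A (1-s)` -/
  endp : ∀ c : ℕ →₀ ℚ, ∀ w ∈ (sob m).TestI, 0 ≤ w → ∃ A : ℝ,
    ∀ᵐ s ∂(volume.restrict (Ioo (1 / 2 : ℝ) 1)),
      Integrable (fun x => w x * ⟪cmb (fun i => Hh i s (Y s x)) c,
        cmb (fun i => Gr (e i) (Y s x)) c⟫_ℝ) m ∧
      (sob m).wH (cl m (zr p s₀ C₀ 1)) (cmb e c) w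
        ≤ ∫ x, w x * ⟪cmb (fun i => Hh i s (Y s x)) c, cmb (fun i => Gr (e i) (Y s x)) c⟫_ℝ ∂m
          + A * (1 - s)

/-- OUTPUT OF PART C needed by E: flows exist for all centres. -/
def HasFlows (m : Measure M) (Gr : (M →ₘ[m] ℝ) → M → E) (HO : (M →ₘ[m] ℝ) → M → E →L[ℝ] E)
    (e : ℕ → M →ₘ[m] ℝ) (κ : ℝ) : Prop :=
  ∀ (p : M) (s₀ C₀ : ℝ), 0 < s₀ → s₀ ≤ 1 → 0 < C₀ → ∃ (Y : ℝ → M → M) (Hh : ℕ → ℝ → M → E)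
    (Λ : ℝ → M → ℝ), FlowH Gr HO e κ p s₀ C₀ Y Hh Λ

/-! ### inputs from part D -/

/-- D0: jointly measurable version of `(p,x) ↦ ⟨∇eᵢ,∇d_p⟩(x)` -/
structure JointW (Gr : (M →ₘ[m] ℝ) → M → E) (e : ℕ → M →ₘ[m] ℝ) (W : ℕ → M → M → ℝ) : Prop where
  meas : ∀ i, Measurable fun q : M × M => W i q.1 q.2
  eq : ∀ i p R, 0 < R → ∀ᵐ x ∂m, dist p x < R → W i p x = ⟪Gr (e i) x, Gr (cl m (dtr p R)) x⟫_ℝ
  unit : ∀ p R, 0 < R → ∀ᵐ x ∂m, dist p x < R → ‖Gr (cl m (dtr p R)) x‖ = 1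
  /-- continuity of `p ↦ ∇d_p` in `L²` -/
  cont : ∀ p R, 0 < R → Tendsto (fun q => ∫⁻ x, ENNReal.ofReal
    (‖Gr (cl m (dtr q R)) x - Gr (cl m (dtr p R)) x‖ ^ 2) ∂m) (𝓝 p) (𝓝 0)

/-- D6: small balls of directions -/
def SmallBalls (Gr : (M →ₘ[m] ℝ) → M → E) (e : ℕ → M →ₘ[m] ℝ) (W : ℕ → M → M → ℝ) : Prop :=
  ∀ (x₀ : M) (R : ℝ), ∃ A : ℝ, ∀ᵐ x ∂m, dist x₀ x < R → ∀ c : ℕ →₀ ℝ,
    ‖cmr (fun i => Gr (e i) x) c‖ = 1 → ∀ ε > 0,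
      m {p | dist x₀ p < R ∧ |cmr (fun i => W i p x) c| < ε} ≤ ENNReal.ofReal (A * ε)

/-- D7: finite rank -/
def FinRank (Gr : (M →ₘ[m] ℝ) → M → E) (e : ℕ → M →ₘ[m] ℝ) : Prop :=
  ∀ (x₀ : M) (R : ℝ), ∃ N₀ : ℕ, ∀ᵐ x ∂m, dist x₀ x < R → ∀ s : Finset ℕ, s.card = N₀ + 1 →
    (Matrix.of fun i j : s => ⟪Gr (e i) x, Gr (e j) x⟫_ℝ).det = 0

/-! ### E1: precise representatives -/

/-- `bt` is a precise representative of `b`: along almost every curve of every flow it is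
absolutely continuous, with the right derivative, for EVERY `t ∈ (0,1]`. -/
def Precise (Gr : (M →ₘ[m] ℝ) → M → E) (HO : (M →ₘ[m] ℝ) → M → E →L[ℝ] E)
    (b : M →ₘ[m] ℝ) (bt : M → ℝ) : Prop :=
  Measurable bt ∧ (∀ᵐ x ∂m, bt x = b x) ∧ ∀ (p : M) (s₀ C₀ : ℝ) (Y : ℝ → M → M),
    Flow Gr HO p s₀ C₀ Y → ∀ᵐ x ∂m, ∀ t ∈ Ioc (0 : ℝ) 1,
      bt (Y t x) = b x - ∫ r in t..1, ⟪Gr b (Y r x), vel Gr p s₀ C₀ Y r x⟫_ℝ

/-- E1 -/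
def Blk_E1 : Prop :=
  ∀ {M : Type u} [MetricSpace M] [MeasurableSpace M] [BorelSpace M] [ProperSpace M]
    (m : Measure M) {E : Type} [NormedAddCommGroup E] [InnerProductSpace ℝ E] [CompleteSpace E]
    (Gr : (M →ₘ[m] ℝ) → M → E) (HO : (M →ₘ[m] ℝ) → M → E →L[ℝ] E) (e : ℕ → M →ₘ[m] ℝ) (K N : ℝ),
    Std m K N → Stat (sob m) Gr HO e → ∀ b ∈ (sob m).W, ∃ bt : M → ℝ, Precise Gr HO b bt

/-! ### E2: the velocity is a limit of test gradients at EVERY time -/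

/-- the continuous version of `t ↦ ⟨∇b,v⟩(Y_t x)` -/
noncomputable def pw (Gr : (M →ₘ[m] ℝ) → M → E) (HO : (M →ₘ[m] ℝ) → M → E →L[ℝ] E)
    (p : M) (s₀ C₀ : ℝ) (Y : ℝ → M → M) (b : M →ₘ[m] ℝ) (t : ℝ) (x : M) : ℝ :=
  ⟪Gr b x, vel Gr p s₀ C₀ Y 1 x⟫_ℝ
    - ∫ r in t..1, ⟪HO b (Y r x) (vel Gr p s₀ C₀ Y r x), vel Gr p s₀ C₀ Y r x⟫_ℝ

/-- `v` is strong at every time: the precise version of `|∇h - v|²(Y_t x)` has infimum `0` over the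
rational combinations `h` of the `eᵢ`. -/
def StrongV (Gr : (M →ₘ[m] ℝ) → M → E) (HO : (M →ₘ[m] ℝ) → M → E →L[ℝ] E)
    (e : ℕ → M →ₘ[m] ℝ) (Gt : ℕ → ℕ → M → ℝ) (p : M) (s₀ C₀ : ℝ) (Y : ℝ → M → M) : Prop :=
  ∀ᵐ x ∂m, ∀ t ∈ Ioo (0 : ℝ) 1, ∀ ε > 0, ∃ c : ℕ →₀ ℚ,
    cmb (fun i => cmb (fun j => Gt i j (Y t x)) c) c
      - 2 * cmb (fun i => pw Gr HO p s₀ C₀ Y (e i) t x) c + spd p s₀ C₀ x ^ 2 < ε

/-- E2 -/
def Blk_E2 : Prop :=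
  ∀ {M : Type u} [MetricSpace M] [MeasurableSpace M] [BorelSpace M] [ProperSpace M]
    (m : Measure M) {E : Type} [NormedAddCommGroup E] [InnerProductSpace ℝ E] [CompleteSpace E]
    (Gr : (M →ₘ[m] ℝ) → M → E) (HO : (M →ₘ[m] ℝ) → M → E →L[ℝ] E) (e : ℕ → M →ₘ[m] ℝ)
    (Gt : ℕ → ℕ → M → ℝ) (K N : ℝ),
    Std m K N → Stat (sob m) Gr HO e → (∀ i j, Precise Gr HO ((sob m).Γ (e i) (e j)) (Gt i j)) →
    ∀ (p : M) (s₀ C₀ : ℝ) (Y : ℝ → M → M), Flow Gr HO p s₀ C₀ Y →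
      StrongV Gr HO e Gt p s₀ C₀ Y

/-! ### E3: avoidance -/

/-- E3: for almost every centre, along almost every curve of every flow the rank of the precise
Gram matrix is constant (and finite). -/
def RankConst (Gr : (M →ₘ[m] ℝ) → M → E) (HO : (M →ₘ[m] ℝ) → M → E →L[ℝ] E)
    (Gt : ℕ → ℕ → M → ℝ) : Prop :=
  ∀ᵐ p ∂m, ∀ (s₀ C₀ : ℝ) (Y : ℝ → M → M), Flow Gr HO p s₀ C₀ Y →
    ∀ᵐ x ∂m, ∃ k, ∀ t ∈ Ioo (0 : ℝ) 1, RankEq (fun i j => Gt i j (Y t x)) k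

/-- E3 -/
def Blk_E3 : Prop :=
  ∀ {M : Type u} [MetricSpace M] [MeasurableSpace M] [BorelSpace M] [ProperSpace M]
    (m : Measure M) {E : Type} [NormedAddCommGroup E] [InnerProductSpace ℝ E] [CompleteSpace E]
    (Gr : (M →ₘ[m] ℝ) → M → E) (HO : (M →ₘ[m] ℝ) → M → E →L[ℝ] E) (e : ℕ → M →ₘ[m] ℝ)
    (Gt : ℕ → ℕ → M → ℝ) (W : ℕ → M → M → ℝ) (K N : ℝ),
    Std m K N → Stat (sob m) Gr HO e → (∀ i j, Precise Gr HO ((sob m).Γ (e i) (e j)) (Gt i j)) →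
    (∀ (p : M) (s₀ C₀ : ℝ) (Y : ℝ → M → M), Flow Gr HO p s₀ C₀ Y →
      StrongV Gr HO e Gt p s₀ C₀ Y) →
    JointW Gr e W → SmallBalls Gr e W → FinRank Gr e → RankConst Gr HO Gt

/-! ### E4/E5 along the flow -/

/-- The comparison along almost every curve of the flow with centre `p`. -/
def HComp (Gr : (M →ₘ[m] ℝ) → M → E) (e : ℕ → M →ₘ[m] ℝ) (κ : ℝ) (p : M) (s₀ C₀ : ℝ)
    (Y : ℝ → M → M) (Hh : ℕ → ℝ → M → E) : Prop :=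
  ∀ᵐ x ∂m, ∀ᵐ t ∂(volume.restrict (Ioo (0 : ℝ) 1)), ∀ c : ℕ →₀ ℚ,
    ⟪cmb (fun i => Hh i t (Y t x)) c, cmb (fun i => Gr (e i) (Y t x)) c⟫_ℝ
      ≤ Mv κ (spd p s₀ C₀ x) t (‖cmb (fun i => Gr (e i) (Y t x)) c‖ ^ 2)
          ⟪cmb (fun i => Gr (e i) (Y t x)) c, vel Gr p s₀ C₀ Y t x⟫_ℝ

/-- E45F: from the per-curve theorem to almost every curve of a flow (rank given). -/
def Blk_E45F : Prop :=
  ∀ {M : Type u} [MetricSpace M] [MeasurableSpace M] [BorelSpace M] [ProperSpace M]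
    (m : Measure M) {E : Type} [NormedAddCommGroup E] [InnerProductSpace ℝ E] [CompleteSpace E]
    (Gr : (M →ₘ[m] ℝ) → M → E) (HO : (M →ₘ[m] ℝ) → M → E →L[ℝ] E) (e : ℕ → M →ₘ[m] ℝ)
    (Gt : ℕ → ℕ → M → ℝ) (K N κ : ℝ),
    Blk_E45 → Std m K N → Stat (sob m) Gr HO e →
    (∀ i j, Precise Gr HO ((sob m).Γ (e i) (e j)) (Gt i j)) →
    ∀ (p : M) (s₀ C₀ : ℝ) (Y : ℝ → M → M) (Hh : ℕ → ℝ → M → E) (Λ : ℝ → M → ℝ),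
      FlowH Gr HO e κ p s₀ C₀ Y Hh Λ → √κ * √(2 * C₀) < Real.pi →
      (∀ᵐ x ∂m, ∃ k, ∀ t ∈ Ioo (0 : ℝ) 1, RankEq (fun i j => Gt i j (Y t x)) k) →
      HComp Gr e κ p s₀ C₀ Y Hh

/-! ### E6: the weak Hessian bound -/

/-- `l ct_κ(l)` -/
noncomputable def lct (κ l : ℝ) : ℝ := open Classical in if l = 0 then 1 else l * cs κ l / sn κ l

/-- `(1 - l ct_κ(l))/l²` -/
noncomputable def bct (κ l : ℝ) : ℝ := open Classical in if l = 0 then κ / 3 else (1 - lct κ l) / l ^ 2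

/-- `Hess F(∇h,∇h) ≤ M₁(∇h,∇h) = lct |∇h|² + bct ⟨∇F,∇h⟩²` weakly, `F = min(d_p²/(2(1+s₀)) - C₀, 0)`
(`∇F = v` is the velocity at time `1`, `|∇F| = spd`). -/
def RadHess (m : Measure M) (κ : ℝ) (p : M) (s₀ C₀ : ℝ) : Prop :=
  ∀ h ∈ (sob m).TestI, ∀ w ∈ (sob m).TestI, 0 ≤ w →
    (sob m).wH (cl m (zr p s₀ C₀ 1)) h w
      ≤ I (w * (cl m (fun x => lct κ (spd p s₀ C₀ x)) * (sob m).Γ h h
          + cl m (fun x => bct κ (spd p s₀ C₀ x)) * (sob m).Γ (cl m (zr p s₀ C₀ 1)) h ^ 2))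

/-- E6a: end point `s → 1` and density of the `eᵢ`. -/
def Blk_E6a : Prop :=
  ∀ {M : Type u} [MetricSpace M] [MeasurableSpace M] [BorelSpace M] [ProperSpace M]
    (m : Measure M) {E : Type} [NormedAddCommGroup E] [InnerProductSpace ℝ E] [CompleteSpace E]
    (Gr : (M →ₘ[m] ℝ) → M → E) (HO : (M →ₘ[m] ℝ) → M → E →L[ℝ] E) (e : ℕ → M →ₘ[m] ℝ)
    (K N κ : ℝ), Std m K N → Stat (sob m) Gr HO e →
    ∀ (p : M) (s₀ C₀ : ℝ) (Y : ℝ → M → M) (Hh : ℕ → ℝ → M → E) (Λ : ℝ → M → ℝ),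
      FlowH Gr HO e κ p s₀ C₀ Y Hh Λ → √κ * √(2 * C₀) < Real.pi →
      HComp Gr e κ p s₀ C₀ Y Hh → RadHess m κ p s₀ C₀

/-- E6 (helper761): all centres, `s₀ → 0`, change of variables `md_κ(d_p) = ψ(d_p²/2)`. -/
def Blk_E6 : Prop :=
  ∀ {M : Type u} [MetricSpace M] [MeasurableSpace M] [BorelSpace M] [ProperSpace M]
    (m : Measure M) (K N κ : ℝ), Std m K N →
    (∀ C₀ : ℝ, 0 < C₀ → √κ * √(2 * C₀) < Real.pi → ∀ s₀ ∈ Ioo (0 : ℝ) 1,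
      ∀ᵐ p ∂m, RadHess m κ p s₀ C₀) →
    ∀ (p : M) (R : ℝ), Adm κ R → HessDist m κ p R

/-- The assembly of part E. -/
def Blk_E : Prop :=
  ∀ {M : Type u} [MetricSpace M] [MeasurableSpace M] [BorelSpace M] [ProperSpace M]
    (m : Measure M) {E : Type} [NormedAddCommGroup E] [InnerProductSpace ℝ E] [CompleteSpace E]
    (Gr : (M →ₘ[m] ℝ) → M → E) (HO : (M →ₘ[m] ℝ) → M → E →L[ℝ] E) (e : ℕ → M →ₘ[m] ℝ)
    (W : ℕ → M → M → ℝ) (K N κ : ℝ), Std m K N → Stat (sob m) Gr HO e →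
    HasFlows m Gr HO e κ → JointW Gr e W → SmallBalls Gr e W → FinRank Gr e →
    ∀ (p : M) (R : ℝ), Adm κ R → HessDist m κ p R

end stat

end Vale.Agent.P233
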