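import Vale.Agent.P233.Gig.IfA
import Vale.Agent.P233.Gig.IfB
import Vale.Agent.P233.Gig.IfD
import Vale.Agent.P233.Gig.IfE

/-! P233, (B) implies (A), part C: the limit `ε → 0` (frozen interface, version 2.2; sub-captain
helper287, deputy helper106).

Reference time `1`, reference density `1` (so the reference measure is `m`), levels
`ε = PA.en n = 1/(n+1)`, one ultrafilter `U ≤ atTop`. Input: `PA.OutA` (output of A), `LevB` (output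
of B). Limit data: `LimOf`, `Lim` (block C1), `Mult` (C2), `Maps` (C3), `RFlow` (C4), `Strong` (C6a),
`Second` (C5), `HLim` (C6b), `RicFlow` (C6). Outputs: `PD.HasContr` (C4D), `HasFlows` (C7). -/

set_option linter.all false

open MeasureTheory Filter Topology Set
open scoped ENNReal NNReal InnerProductSpace

universe u

namespace Vale.Agent.P233.PC

open Vale.Agent.P233.PA (en OutA PotLim)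

/-! ### notation -/

section abstract

variable {M : Type u} [MeasurableSpace M] {m : Measure M}

/-- `L² ∩ L^∞` -/
def L2i (m : Measure M) (f : M →ₘ[m] ℝ) : Prop := MemLp f 2 m ∧ MemLp f ∞ m

/-- weak inequality `Δ f ≤ c` -/
def LapLE (C : Calc m) (f : M →ₘ[m] ℝ) (c : ℝ) : Prop :=
  ∀ g ∈ C.W, 0 ≤ g → MemLp g 1 m → -I (C.Γ f g) ≤ c * I g

/-- weak inequality `c ≤ Δ f` -/
def LapGE (C : Calc m) (f : M →ₘ[m] ℝ) (c : ℝ) : Prop :=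
  ∀ g ∈ C.W, 0 ≤ g → MemLp g 1 m → c * I g ≤ -I (C.Γ f g)

open Classical in
/-- The two-time operator of level `ε`: the density at time `t` of the weight `k` at time `r`. -/
noncomputable def RE (P : ℝ → (M →ₘ[m] ℝ) → (M →ₘ[m] ℝ)) (ε : ℝ) (φ u : ℝ → M →ₘ[m] ℝ)
    (t r : ℝ) (k : M →ₘ[m] ℝ) : M →ₘ[m] ℝ :=
  if t ≤ r then ex (-(ε⁻¹ • u t)) * P (ε * (r - t) / 2) (k * ex (ε⁻¹ • φ r))
  else ex (ε⁻¹ • φ t) * P (ε * (t - r) / 2) (k * ex (-(ε⁻¹ • u r)))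

end abstract

section metric

variable {M : Type u} [MetricSpace M] [MeasurableSpace M]

/-- the class of the radial potential `zr p s₀ C₀ t` -/
noncomputable def zc (m : Measure M) (p : M) (s₀ C₀ t : ℝ) : M →ₘ[m] ℝ := cl m (zr p s₀ C₀ t)

/-- the radius of the moving ball at time `1` -/
noncomputable def r1 (s₀ C₀ : ℝ) : ℝ := √(2 * C₀ * (1 + s₀))

/-- the class of the truncated distance (bounded support), `= d_p - r1` in the moving ball -/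
noncomputable def dc (m : Measure M) (p : M) (s₀ C₀ : ℝ) : M →ₘ[m] ℝ := cl m (dtr p (r1 s₀ C₀))

/-- the speed of the particle which is at `x` (in the moving ball) at time `1` -/
noncomputable def spd1 (p : M) (s₀ : ℝ) (x : M) : ℝ := dist p x / (1 + s₀)

/-- the compression constant (independent of `p` and `s₀`), for `ε ≤ 1` -/
noncomputable def cK (K C₀ : ℝ) : ℝ := Real.exp ((1 + |K|) * |K| * C₀)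

/-! ### level data -/

/-- the density of level `n` with final density `exp l` -/
noncomputable def rn {m : Measure M} (u : ℕ → ℝ → M →ₘ[m] ℝ)
    (φ : (M →ₘ[m] ℝ) → ℕ → ℝ → M →ₘ[m] ℝ) (l : M →ₘ[m] ℝ) (n : ℕ) (t : ℝ) : M →ₘ[m] ℝ :=
  rh (en n) (φ l n) (u n) t

/-- `θ` of level `n` with final density `exp l` -/
noncomputable def tn {m : Measure M} (u : ℕ → ℝ → M →ₘ[m] ℝ)
    (φ : (M →ₘ[m] ℝ) → ℕ → ℝ → M →ₘ[m] ℝ) (l : M →ₘ[m] ℝ) (n : ℕ) (t : ℝ) : M →ₘ[m] ℝ :=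
  th (φ l n) (u n) t

/-- `w = ρ^l / ρ^0 = exp ((φ^l - φ^0)/ε)`, the conditional expectation of the weight `exp l` at
time `1` -/
noncomputable def wn {m : Measure M} (φ : (M →ₘ[m] ℝ) → ℕ → ℝ → M →ₘ[m] ℝ)
    (l : M →ₘ[m] ℝ) (n : ℕ) (t : ℝ) : M →ₘ[m] ℝ := rh (en n) (φ l n) (φ 0 n) t

/-- Output of part B for the families of `OutA`, uniform in the level `n` (glue: helper227). -/
structure LevB (m : Measure M) {E : Type} [NormedAddCommGroup E] [InnerProductSpace ℝ E]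
    (Gr : (M →ₘ[m] ℝ) → M → E) (V : (M →ₘ[m] ℝ) → (M →ₘ[m] ℝ) → M → E)
    (D : (M →ₘ[m] ℝ) → (M →ₘ[m] ℝ)) (κ : ℝ)
    (u : ℕ → ℝ → M →ₘ[m] ℝ) (φ : (M →ₘ[m] ℝ) → ℕ → ℝ → M →ₘ[m] ℝ) : Prop where
  /-- B0, B0r, B0c -/
  reg : ∀ l ∈ (sob m).TestI, ∀ᶠ n in atTop, (sob m).Reg (en n) 0 1 (φ l n) (u n)
  mem : ∀ l ∈ (sob m).TestI, ∀ᶠ n in atTop, ∀ t ∈ Icc (0 : ℝ) 1,
    LL (en n) (φ l n) (u n) t ∈ (sob m).TestI ∧ tn u φ l n t ∈ (sob m).TestI ∧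
      rn u φ l n t - 1 ∈ (sob m).TestI ∧ wn φ l n t - 1 ∈ (sob m).TestI ∧
      rn u φ l n t = wn φ l n t * rn u φ 0 n t
  fld : ∀ l ∈ (sob m).TestI, ∀ h ∈ (sob m).TestI, ∀ᶠ n in atTop, ∀ t ∈ Icc (0 : ℝ) 1,
    Tendsto (fun s => eLpNorm (fun x => V (tn u φ l n s) h x - V (tn u φ l n t) h x) 2 m)
      (𝓝[Icc 0 1] t) (𝓝 0) ∧
    Tendsto (fun s => eLpNorm (fun x => V h (tn u φ l n s) x - V h (tn u φ l n t) x) 2 m)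
      (𝓝[Icc 0 1] t) (𝓝 0) ∧
    Tendsto (fun s => I ((rn u φ l n s - rn u φ l n t) ^ 2)) (𝓝[Icc 0 1] t) (𝓝 0)
  /-- B2 -/
  b2 : ∀ l ∈ (sob m).TestI, ∀ s ∈ Ioo (0 : ℝ) 1, ∃ c : ℝ, ∀ᶠ n in atTop, ∀ t ∈ Icc s 1,
    en n * (sob m).EV (en n) (φ l n) (u n) t ≤ c ∧
    |(sob m).EA (en n) (φ l n) (u n) t - (sob m).EB (en n) (φ l n) (u n) t| ≤ c * en n ∧
    (sob m).EA (en n) (φ l n) (u n) t ≤ c ∧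
    |(sob m).EA (en n) (φ l n) (u n) t - (sob m).EA (en n) (φ l n) (u n) 1| ≤ c * en n
  /-- B3 -/
  b3 : ∀ l ∈ (sob m).TestI, ∀ s ∈ Ioo (0 : ℝ) 1, ∃ c : ℝ, ∀ᶠ n in atTop, ∃ e : ℝ → ℝ,
    ContinuousOn e (Icc s 1) ∧ ∫ t in s..1, e t ≤ c ∧ ∀ t ∈ Icc s 1,
      I (rn u φ l n t * D (tn u φ l n t) ^ 2)
        + en n ^ 2 * I (rn u φ l n t * D (LL (en n) (φ l n) (u n) t) ^ 2)
        + en n ^ 2 * I (rn u φ l n t * (sob m).lap (LL (en n) (φ l n) (u n) t) ^ 2) ≤ e t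
  /-- B4 -/
  b4 : ∀ l ∈ (sob m).TestI, ∀ s ∈ Ioo (0 : ℝ) 1, ∃ c : ℝ, ∀ᶠ n in atTop,
    ∫ t in s..1, en n ^ 2 * (sob m).EV4 (en n) (φ l n) (u n) t ≤ c
  /-- B6 -/
  b6 : ∀ l ∈ (sob m).TestI, ∀ h ∈ (sob m).TestI, ∀ s ∈ Ioo (0 : ℝ) 1, ∃ e : ℕ → ℝ,
    Tendsto e atTop (𝓝 0) ∧ ∀ᶠ n in atTop,
      ContinuousOn ((sob m).FR V κ (en n) (φ l n) (u n) h) (Icc s 1) ∧
      ContinuousOn ((sob m).SS (en n) (φ l n) (u n) h) (Icc s 1) ∧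
      ∀ a b, s ≤ a → a ≤ b → b ≤ 1 →
        (sob m).SS (en n) (φ l n) (u n) h b - (sob m).SS (en n) (φ l n) (u n) h a
          ≤ (∫ t in a..b, (sob m).FR V κ (en n) (φ l n) (u n) h t) + e n
  /-- B7 -/
  b7 : ∀ l ∈ (sob m).TestI, ∀ b ∈ (sob m).Test, ∀ s ∈ Ioo (0 : ℝ) 1, ∃ e : ℕ → ℝ,
    Tendsto e atTop (𝓝 0) ∧ ∀ᶠ n in atTop,
      ContinuousOn (fun t => I (rn u φ l n t * (sob m).hess b (tn u φ l n t) (tn u φ l n t)))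
        (Icc s 1) ∧ ∀ a c, s ≤ a → a ≤ c → c ≤ 1 →
      |I (rn u φ l n c * (sob m).Γ b (tn u φ l n c)) - I (rn u φ l n a * (sob m).Γ b (tn u φ l n a))
        - ∫ t in a..c, I (rn u φ l n t * (sob m).hess b (tn u φ l n t) (tn u φ l n t))| ≤ e n
  /-- B8a -/
  b8 : ∀ l ∈ (sob m).TestI, ∀ᶠ n in atTop,
    ContinuousOn (fun t => I (rn u φ 0 n t * (sob m).Γ (wn φ l n t - 1) (wn φ l n t - 1)))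
      (Icc 0 1) ∧ ∀ s ∈ Icc (0 : ℝ) 1,
    I ((ex l - 1) ^ 2) - I (rn u φ 0 n s * (wn φ l n s - 1) ^ 2)
      = en n * ∫ t in s..1, I (rn u φ 0 n t * (sob m).Γ (wn φ l n t - 1) (wn φ l n t - 1))
  /-- B8b -/
  b8b : ∀ l ∈ (sob m).TestI, ∀ h ∈ (sob m).TestI, ∀ β ∈ (sob m).TestI, ∀ s ∈ Ioo (0 : ℝ) 1,
    ∃ c : ℝ, ∀ᶠ n in atTop, ∀ t ∈ Icc s 1,
      |I (β * rn u φ l n t * ((sob m).hess (tn u φ l n t) h h - (sob m).hess (tn u φ 0 n t) h h))|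
        ≤ c * √(en n * I (rn u φ 0 n t * (sob m).Γ (wn φ l n t - 1) (wn φ l n t - 1)))

/-! ### limit objects -/

/-- `ρ`, `R` are the limits along the ultrafilter `U` of the objects of level `n` with final
density `1`. -/
structure LimOf {m : Measure M} (P : ℝ → (M →ₘ[m] ℝ) → (M →ₘ[m] ℝ)) (U : Ultrafilter ℕ)
    (u : ℕ → ℝ → M →ₘ[m] ℝ) (φ : (M →ₘ[m] ℝ) → ℕ → ℝ → M →ₘ[m] ℝ)
    (ρ : ℝ → M →ₘ[m] ℝ) (R : ℝ → ℝ → (M →ₘ[m] ℝ) → (M →ₘ[m] ℝ)) : Prop where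
  ρ_lim : ∀ t ∈ Ioc (0 : ℝ) 1, ∀ b : M →ₘ[m] ℝ, MemLp b 2 m →
    Tendsto (fun n => I (b * (rn u φ 0 n t - 1))) U (𝓝 (I (b * (ρ t - 1))))
  R_lim : ∀ t ∈ Ioc (0 : ℝ) 1, ∀ r ∈ Ioc (0 : ℝ) 1, ∀ k, L2i m k → ∀ b : M →ₘ[m] ℝ,
    MemLp b 2 m → Tendsto (fun n => I (b * RE P (en n) (φ 0 n) (u n) t r k)) U
      (𝓝 (I (b * R t r k)))

/-- The limit objects (block C1). `R t r k` is the density at time `t` of the weight `k` at time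
`r`; `ρ t = R t r 1`; `φ t` is the class of the `φ₀ t` of `PotLim`. -/
structure Lim (m : Measure M) (K N : ℝ) (p : M) (s₀ C₀ : ℝ) (φ ρ : ℝ → M →ₘ[m] ℝ)
    (R : ℝ → ℝ → (M →ₘ[m] ℝ) → (M →ₘ[m] ℝ)) : Prop where
  z_mem : ∀ t ∈ Icc (0 : ℝ) 1, zc m p s₀ C₀ t ∈ (sob m).A
  z_grad : ∃ L : ℝ, ∀ t ∈ Icc (0 : ℝ) 1, ∀ᵐ x ∂m,
    (sob m).Γ (zc m p s₀ C₀ t) (zc m p s₀ C₀ t) x ≤ L
  z_lap : ∀ s ∈ Ioo (0 : ℝ) 1, ∃ c : ℝ, ∀ t ∈ Icc s 1, LapLE (sob m) (zc m p s₀ C₀ t) c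
  /-- `|∇d_p| = 1` -/
  unit : ∀ᵐ x ∂m, dist p x < r1 s₀ C₀ → (sob m).Γ (dc m p s₀ C₀) (dc m p s₀ C₀) x = 1
  φ_mem : ∀ t ∈ Icc (0 : ℝ) 1, φ t ∈ (sob m).A
  φ_bd : ∃ B : ℝ, ∀ t ∈ Icc (0 : ℝ) 1, ∀ᵐ x ∂m, |φ t x| ≤ B
  φ_grad : ∃ L : ℝ, ∀ t ∈ Icc (0 : ℝ) 1, ∀ᵐ x ∂m, (sob m).Γ (φ t) (φ t) x ≤ L
  /-- with the rate at `t → 1` (needed for the end point of C2, helper22) -/
  φ_lap : ∃ c : ℝ, ∀ t ∈ Ico (0 : ℝ) 1, LapGE (sob m) (φ t) (-(N / (1 - t) + c))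
  φ_far : ∃ R₀ : ℝ, ∀ t ∈ Icc (0 : ℝ) 1, ∀ᵐ x ∂m, R₀ ≤ dist p x → φ t x = 0
  φ_le : ∀ t ∈ Icc (0 : ℝ) 1, φ t ≤ zc m p s₀ C₀ t
  ρ_one : ρ 1 = 1
  ρ_nonneg : ∀ t ∈ Ioc (0 : ℝ) 1, 0 ≤ ρ t
  ρ_le : ∀ t ∈ Ioc (0 : ℝ) 1, ∀ᵐ x ∂m, ρ t x ≤ cK K C₀ * t ^ (-N)
  ρ_L2 : ∀ s ∈ Ioc (0 : ℝ) 1, ∃ B : ℝ, ∀ t ∈ Icc s 1,
    MemLp (ρ t - 1 : M →ₘ[m] ℝ) 2 m ∧ I ((ρ t - 1) ^ 2) ≤ B
  R_mem : ∀ t ∈ Ioc (0 : ℝ) 1, ∀ r ∈ Ioc (0 : ℝ) 1, ∀ k, L2i m k → L2i m (R t r k)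
  R_add : ∀ t ∈ Ioc (0 : ℝ) 1, ∀ r ∈ Ioc (0 : ℝ) 1, ∀ k k', L2i m k → L2i m k' →
    R t r (k + k') = R t r k + R t r k'
  R_smul : ∀ t ∈ Ioc (0 : ℝ) 1, ∀ r ∈ Ioc (0 : ℝ) 1, ∀ (c : ℝ) k, L2i m k →
    R t r (c • k) = c • R t r k
  R_nonneg : ∀ t ∈ Ioc (0 : ℝ) 1, ∀ r ∈ Ioc (0 : ℝ) 1, ∀ k, L2i m k → 0 ≤ k → 0 ≤ R t r k
  R_le : ∀ t ∈ Ioc (0 : ℝ) 1, ∀ r ∈ Ioc (0 : ℝ) 1, ∀ k, L2i m k → ∀ B : ℝ,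
    (∀ᵐ x ∂m, |k x| ≤ B) → ∀ᵐ x ∂m, |R t r k x| ≤ B * ρ t x
  R_symm : ∀ t ∈ Ioc (0 : ℝ) 1, ∀ r ∈ Ioc (0 : ℝ) 1, ∀ k b, L2i m k → L2i m b →
    I (b * R t r k) = I (k * R r t b)
  R_diag : ∀ t ∈ Ioc (0 : ℝ) 1, ∀ k, L2i m k → R t t k = k * ρ t
  R_mass : ∀ t ∈ Ioc (0 : ℝ) 1, ∀ r ∈ Ioc (0 : ℝ) 1, ∀ k, L2i m k → MemLp k 1 m →
    MemLp (R t r k) 1 m ∧ I (R t r k) = I (k * ρ r)
  /-- Cauchy-Schwarz: `(K k)² ≤ K (k²)` -/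
  R_sq : ∀ t ∈ Ioc (0 : ℝ) 1, ∀ r ∈ Ioc (0 : ℝ) 1, ∀ k, L2i m k →
    R t r k ^ 2 ≤ ρ t * R t r (k ^ 2)
  /-- three-time positivity: `E (a(X_s) + b(X_r) + c(X_t))² ≥ 0` -/
  R_gram : ∀ s ∈ Ioc (0 : ℝ) 1, ∀ r ∈ Ioc (0 : ℝ) 1, ∀ t ∈ Ioc (0 : ℝ) 1, ∀ a b c, L2i m a →
    L2i m b → L2i m c → 0 ≤ I (a ^ 2 * ρ s) + I (b ^ 2 * ρ r) + I (c ^ 2 * ρ t)
      + 2 * I (a * R s r b) + 2 * I (b * R r t c) + 2 * I (a * R s t c)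
  ρ_supp : ∀ t ∈ Ioo (0 : ℝ) 1, ∀ᵐ x ∂m, φ t x < zc m p s₀ C₀ t x → ρ t x = 0
  /-- the continuity equation, for all weights and across `r` -/
  CE : ∀ r ∈ Ioc (0 : ℝ) 1, ∀ k, L2i m k → ∀ b ∈ (sob m).W, ∀ s ∈ Ioc (0 : ℝ) 1,
    ∀ t ∈ Ioc (0 : ℝ) 1,
    IntervalIntegrable (fun τ => I ((sob m).Γ b (zc m p s₀ C₀ τ) * R τ r k)) volume s t ∧
    I (b * (R t r k - R s r k)) = ∫ τ in s..t, I ((sob m).Γ b (zc m p s₀ C₀ τ) * R τ r k)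
  CEρ : ∀ b ∈ (sob m).W, ∀ s ∈ Ioc (0 : ℝ) 1, ∀ t ∈ Ioc (0 : ℝ) 1,
    IntervalIntegrable (fun τ => I ((sob m).Γ b (zc m p s₀ C₀ τ) * ρ τ)) volume s t ∧
    I (b * (ρ t - ρ s)) = ∫ τ in s..t, I ((sob m).Γ b (zc m p s₀ C₀ τ) * ρ τ)

/-- Determinism (block C2): `K_(t,r) k = R t r k / ρ t` is multiplicative. (Equivalent to the
isometry `∫ (R t r k)² / ρ t = ∫ k² ρ r`, by `R_sq` and `R_mass`.) -/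
def Mult {m : Measure M} (ρ : ℝ → M →ₘ[m] ℝ) (R : ℝ → ℝ → (M →ₘ[m] ℝ) → (M →ₘ[m] ℝ)) : Prop :=
  ∀ t ∈ Ioc (0 : ℝ) 1, ∀ r ∈ Ioc (0 : ℝ) 1, ∀ k k', L2i m k → L2i m k' →
    R t r (k * k') * ρ t = R t r k * R t r k'

/-- The maps `Y t` (block C3): `X_t = Y t X_1`. -/
structure Maps {m : Measure M} (ρ : ℝ → M →ₘ[m] ℝ)
    (R : ℝ → ℝ → (M →ₘ[m] ℝ) → (M →ₘ[m] ℝ)) (Y : ℝ → M → M) : Prop where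
  meas : ∀ t ∈ Ioc (0 : ℝ) 1, Measurable (Y t)
  one : ∀ x, Y 1 x = x
  map : ∀ t ∈ Ioc (0 : ℝ) 1, ∀ A : Set M, MeasurableSet A →
    m (Y t ⁻¹' A) = ∫⁻ x in A, ENNReal.ofReal (ρ t x) ∂m
  repr : ∀ t ∈ Ioc (0 : ℝ) 1, ∀ k, L2i m k → ∀ᵐ x ∂m, R 1 t k x = k (Y t x)
  comp : ∀ t ∈ Ioc (0 : ℝ) 1, ∀ r ∈ Ioc (0 : ℝ) 1, ∀ k, L2i m k →
    ∀ᵐ x ∂m, R t r k (Y t x) = ρ t (Y t x) * k (Y r x)

/-- The radial flow (block C4): for a.e. `x` in the moving ball, `t ↦ Y t x` is a geodesic of speed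
`d(p,x)/(1+s₀)`, pointing to `p`. -/
structure RFlow (m : Measure M) (K N : ℝ) (p : M) (s₀ C₀ : ℝ) (Y : ℝ → M → M) : Prop where
  meas : Measurable fun z : ℝ × M => Y z.1 z.2
  one : ∀ x, Y 1 x = x
  off : ∀ x, r1 s₀ C₀ ≤ dist p x → ∀ t, Y t x = x
  geo : ∀ᵐ x ∂m, dist p x < r1 s₀ C₀ → ∀ s ∈ Icc (0 : ℝ) 1, ∀ t ∈ Icc (0 : ℝ) 1,
    dist (Y s x) (Y t x) = |s - t| * spd1 p s₀ x
  rad : ∀ᵐ x ∂m, dist p x < r1 s₀ C₀ → ∀ t ∈ Icc (0 : ℝ) 1,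
    dist p (Y t x) = (t + s₀) * spd1 p s₀ x
  dens : ∀ t ∈ Ioc (0 : ℝ) 1, ∀ A : Set M, MeasurableSet A →
    m (Y t ⁻¹' A) ≤ ENNReal.ofReal (cK K C₀ * t ^ (-N)) * m A
  /-- first derivative along the flow, Sobolev functions -/
  der : ∀ b ∈ (sob m).W, ∀ s ∈ Ioc (0 : ℝ) 1, ∀ t ∈ Icc s 1, ∀ᵐ x ∂m, dist p x < r1 s₀ C₀ →
    IntervalIntegrable (fun τ => (sob m).Γ b (dc m p s₀ C₀) (Y τ x)) volume s t ∧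
    b (Y t x) - b (Y s x) = spd1 p s₀ x * ∫ τ in s..t, (sob m).Γ b (dc m p s₀ C₀) (Y τ x)
  /-- first derivative along the flow, Lipschitz functions, up to time `0` -/
  derLip : ∀ b : M → ℝ, (∃ L : ℝ≥0, LipschitzWith L b) → cl m b ∈ (sob m).W →
    ∀ᵐ x ∂m, dist p x < r1 s₀ C₀ → ∀ s ∈ Icc (0 : ℝ) 1, ∀ t ∈ Icc s 1,
    IntervalIntegrable (fun τ => (sob m).Γ (cl m b) (dc m p s₀ C₀) (Y τ x)) volume s t ∧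
    b (Y t x) - b (Y s x)
      = spd1 p s₀ x * ∫ τ in s..t, (sob m).Γ (cl m b) (dc m p s₀ C₀) (Y τ x)

end metric

/-! ### second order -/

section second

variable {M : Type u} [MetricSpace M] [MeasurableSpace M]
variable {E : Type} [NormedAddCommGroup E] [InnerProductSpace ℝ E]

/-- Second derivative along the flow (block C5). -/
def Second (m : Measure M) (Gr : (M →ₘ[m] ℝ) → M → E) (HO : (M →ₘ[m] ℝ) → M → E →L[ℝ] E)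
    (p : M) (s₀ C₀ : ℝ) (Y : ℝ → M → M) : Prop :=
  ∀ b ∈ (sob m).TestI, ∀ s ∈ Ioc (0 : ℝ) 1, ∀ t ∈ Icc s 1, ∀ᵐ x ∂m, dist p x < r1 s₀ C₀ →
    IntervalIntegrable (fun τ => ⟪HO b (Y τ x) (Gr (dc m p s₀ C₀) (Y τ x)),
      Gr (dc m p s₀ C₀) (Y τ x)⟫_ℝ) volume s t ∧
    (sob m).Γ b (dc m p s₀ C₀) (Y t x) - (sob m).Γ b (dc m p s₀ C₀) (Y s x)
      = spd1 p s₀ x * ∫ τ in s..t, ⟪HO b (Y τ x) (Gr (dc m p s₀ C₀) (Y τ x)),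
          Gr (dc m p s₀ C₀) (Y τ x)⟫_ℝ

/-- Block C6a: strong convergence (determinism). -/
structure Strong {m : Measure M} (p : M) (s₀ C₀ : ℝ) (U : Ultrafilter ℕ)
    (u : ℕ → ℝ → M →ₘ[m] ℝ) (φ : (M →ₘ[m] ℝ) → ℕ → ℝ → M →ₘ[m] ℝ) (Y : ℝ → M → M) : Prop where
  /-- B8, conclusion -/
  grad : ∀ l ∈ (sob m).TestI, ∀ s ∈ Ioo (0 : ℝ) 1, Tendsto (fun n => en n * ∫ t in s..1,
    I (rn u φ 0 n t * (sob m).Γ (wn φ l n t - 1) (wn φ l n t - 1))) U (𝓝 0)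
  /-- `E^0 |w_t - 1 - k(X_t)|² → E |exp l (X_1) - 1 - k(X_t)|²` -/
  w_lim : ∀ l ∈ (sob m).TestI, ∀ t ∈ Ioc (0 : ℝ) 1, ∀ k, L2i m k →
    Tendsto (fun n => I (rn u φ 0 n t * (wn φ l n t - 1 - k) ^ 2)) U
      (𝓝 (∫ x, (Real.exp (l x) - 1 - k (Y t x)) ^ 2 ∂m))
  /-- the densities `ρ^l` converge weakly to the image of `exp l` under `Y t` -/
  ρ_lim : ∀ l ∈ (sob m).TestI, ∀ t ∈ Ioc (0 : ℝ) 1, ∀ b : M →ₘ[m] ℝ, MemLp b 1 m →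
    Tendsto (fun n => I (b * rn u φ l n t)) U (𝓝 (∫ x, b (Y t x) * Real.exp (l x) ∂m))
  /-- `v = ∇θ → ∇z` strongly, at every time `t ∈ (0,1)`, locally -/
  v_lim : ∀ l ∈ (sob m).TestI, ∀ t ∈ Ioc (0 : ℝ) 1, ∀ χ : M →ₘ[m] ℝ, MemLp χ 1 m → 0 ≤ χ →
    Tendsto (fun n => I (χ * rn u φ l n t *
      (sob m).Γ (tn u φ l n t - zc m p s₀ C₀ t) (tn u φ l n t - zc m p s₀ C₀ t))) U (𝓝 0)

/-- Block C6b: the weak limits `Hs h t` of `Hess θ (∇h)`, the same for all final densities.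
`Hs h t y` is only meaningful for `y = Y t x`. -/
structure HLim (m : Measure M) (U : Ultrafilter ℕ) (Gr : (M →ₘ[m] ℝ) → M → E)
    (V : (M →ₘ[m] ℝ) → (M →ₘ[m] ℝ) → M → E)
    (u : ℕ → ℝ → M →ₘ[m] ℝ) (φ : (M →ₘ[m] ℝ) → ℕ → ℝ → M →ₘ[m] ℝ) (Y : ℝ → M → M)
    (e : ℕ → M →ₘ[m] ℝ) (Hs : (M →ₘ[m] ℝ) → ℝ → M → E) (Λ : ℝ → M → ℝ) : Prop where
  meas : ∀ h ∈ (sob m).TestI, StronglyMeasurable fun z : ℝ × M => Hs h z.1 z.2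
  measΛ : Measurable fun z : ℝ × M => Λ z.1 z.2
  nonneg : ∀ t y, 0 ≤ Λ t y
  int : ∀ s ∈ Ioo (0 : ℝ) 1, ∫⁻ t in Ioc s 1, ∫⁻ x, ENNReal.ofReal (Λ t (Y t x) ^ 2) ∂m < ∞
  bd : ∀ h ∈ (sob m).TestI, ∀ᵐ t ∂(volume.restrict (Ioc (0 : ℝ) 1)), ∀ᵐ x ∂m,
    ‖Hs h t (Y t x)‖ ≤ Λ t (Y t x) * ‖Gr h (Y t x)‖
  lin : ∀ h ∈ (sob m).TestI, ∀ h' ∈ (sob m).TestI, ∀ c : ℝ,
    ∀ᵐ t ∂(volume.restrict (Ioc (0 : ℝ) 1)), ∀ᵐ x ∂m,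
      Hs (h + c • h') t (Y t x) = Hs h t (Y t x) + c • Hs h' t (Y t x)
  sym : ∀ h ∈ (sob m).TestI, ∀ h' ∈ (sob m).TestI,
    ∀ᵐ t ∂(volume.restrict (Ioc (0 : ℝ) 1)), ∀ᵐ x ∂m,
      ⟪Hs h t (Y t x), Gr h' (Y t x)⟫_ℝ = ⟪Hs h' t (Y t x), Gr h (Y t x)⟫_ℝ
  /-- `H_t(∇h)` is in the closed span of the gradients of the `e i` (of `Stat`) -/
  span : ∀ h ∈ (sob m).TestI, ∀ᵐ t ∂(volume.restrict (Ioc (0 : ℝ) 1)), ∀ᵐ x ∂m,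
      Hs h t (Y t x) ∈ (Submodule.span ℝ (range fun j => Gr (e j) (Y t x))).topologicalClosure
  /-- weak convergence in `L²((s,1) × M; E)`, for all final densities `exp l` -/
  conv : ∀ l ∈ (sob m).TestI, ∀ h ∈ (sob m).TestI, ∀ s ∈ Ioo (0 : ℝ) 1, ∀ Φ : ℝ → M → E,
    StronglyMeasurable (fun z : ℝ × M => Φ z.1 z.2) →
    MemLp (fun z : ℝ × M => Φ z.1 z.2) 2 ((volume.restrict (Ioc s 1)).prod m) →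
    Tendsto (fun n => ∫ t in s..1, I (rn u φ l n t * ipE m (V (tn u φ l n t) h) (Φ t))) U
      (𝓝 (∫ t in s..1, ∫ x, Real.exp (l x) * ⟪Hs h t (Y t x), Φ t (Y t x)⟫_ℝ ∂m))

/-- The Riccati inequality along the flow and the end point (block C6). -/
structure RicFlow (m : Measure M) (κ : ℝ) (Gr : (M →ₘ[m] ℝ) → M → E)
    (HO : (M →ₘ[m] ℝ) → M → E →L[ℝ] E) (p : M) (s₀ C₀ : ℝ) (Y : ℝ → M → M)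
    (Hs : (M →ₘ[m] ℝ) → ℝ → M → E) : Prop where
  ric : ∀ h ∈ (sob m).TestI, ∀ᵐ x ∂m, dist p x < r1 s₀ C₀ →
    ∀ᵐ s ∂(volume.restrict (Ioc (0 : ℝ) 1)), ∀ᵐ t ∂(volume.restrict (Ioc (0 : ℝ) 1)), s < t →
    ⟪Hs h t (Y t x), Gr h (Y t x)⟫_ℝ - ⟪Hs h s (Y s x), Gr h (Y s x)⟫_ℝ ≤
      ∫ τ in s..t, (2 * spd1 p s₀ x *
            ⟪Hs h τ (Y τ x), HO h (Y τ x) (Gr (dc m p s₀ C₀) (Y τ x))⟫_ℝ
        - ‖Hs h τ (Y τ x)‖ ^ 2 - κ * spd1 p s₀ x ^ 2 * (‖Gr h (Y τ x)‖ ^ 2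
            - ⟪Gr h (Y τ x), Gr (dc m p s₀ C₀) (Y τ x)⟫_ℝ ^ 2))
  /-- outside the moving ball `Y t x = x` does not move, and `Hs h t` is nonincreasing there -/
  ricOff : ∀ h ∈ (sob m).TestI, ∀ᵐ x ∂m, r1 s₀ C₀ ≤ dist p x →
    ∀ᵐ s ∂(volume.restrict (Ioc (0 : ℝ) 1)), ∀ᵐ t ∂(volume.restrict (Ioc (0 : ℝ) 1)), s < t →
    ⟪Hs h t x, Gr h x⟫_ℝ - ⟪Hs h s x, Gr h x⟫_ℝ ≤ ∫ τ in s..t, - ‖Hs h τ x‖ ^ 2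
  /-- the end point, including the cut locus -/
  fin : ∀ h ∈ (sob m).TestI, ∀ w ∈ (sob m).TestI, 0 ≤ w → ∃ A : ℝ,
    ∀ᵐ s ∂(volume.restrict (Ioo (1 / 2 : ℝ) 1)),
      Integrable (fun x => w x * ⟪Hs h s (Y s x), Gr h (Y s x)⟫_ℝ) m ∧
      (sob m).wH (zc m p s₀ C₀ 1) h w
        ≤ (∫ x, w x * ⟪Hs h s (Y s x), Gr h (Y s x)⟫_ℝ ∂m) + A * (1 - s)

/-- Everything that part C proves about one centre. -/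
structure COut (m : Measure M) (K N κ : ℝ) (Gr : (M →ₘ[m] ℝ) → M → E)
    (HO : (M →ₘ[m] ℝ) → M → E →L[ℝ] E) (e : ℕ → M →ₘ[m] ℝ) (p : M) (s₀ C₀ : ℝ)
    (φ ρ : ℝ → M →ₘ[m] ℝ) (R : ℝ → ℝ → (M →ₘ[m] ℝ) → (M →ₘ[m] ℝ)) (Y : ℝ → M → M)
    (Hs : (M →ₘ[m] ℝ) → ℝ → M → E) (Λ : ℝ → M → ℝ) : Prop where
  lim : Lim m K N p s₀ C₀ φ ρ R
  maps : Maps ρ R Y
  flow : RFlow m K N p s₀ C₀ Y
  sec : Second m Gr HO p s₀ C₀ Y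
  meas : ∀ h ∈ (sob m).TestI, StronglyMeasurable fun z : ℝ × M => Hs h z.1 z.2
  measΛ : Measurable fun z : ℝ × M => Λ z.1 z.2
  nonneg : ∀ t y, 0 ≤ Λ t y
  int : ∀ s ∈ Ioo (0 : ℝ) 1, ∫⁻ t in Ioc s 1, ∫⁻ x, ENNReal.ofReal (Λ t (Y t x) ^ 2) ∂m < ∞
  bd : ∀ h ∈ (sob m).TestI, ∀ᵐ t ∂(volume.restrict (Ioc (0 : ℝ) 1)), ∀ᵐ x ∂m,
    ‖Hs h t (Y t x)‖ ≤ Λ t (Y t x) * ‖Gr h (Y t x)‖
  lin : ∀ h ∈ (sob m).TestI, ∀ h' ∈ (sob m).TestI, ∀ c : ℝ,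
    ∀ᵐ t ∂(volume.restrict (Ioc (0 : ℝ) 1)), ∀ᵐ x ∂m,
      Hs (h + c • h') t (Y t x) = Hs h t (Y t x) + c • Hs h' t (Y t x)
  sym : ∀ h ∈ (sob m).TestI, ∀ h' ∈ (sob m).TestI,
    ∀ᵐ t ∂(volume.restrict (Ioc (0 : ℝ) 1)), ∀ᵐ x ∂m,
      ⟪Hs h t (Y t x), Gr h' (Y t x)⟫_ℝ = ⟪Hs h' t (Y t x), Gr h (Y t x)⟫_ℝ
  span : ∀ h ∈ (sob m).TestI, ∀ᵐ t ∂(volume.restrict (Ioc (0 : ℝ) 1)), ∀ᵐ x ∂m,
      Hs h t (Y t x) ∈ (Submodule.span ℝ (range fun j => Gr (e j) (Y t x))).topologicalClosure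
  ric : RicFlow m κ Gr HO p s₀ C₀ Y Hs

end second

/-! ### blocks -/

section blocks

/-- The standing data of part C. -/
structure CHyp (M : Type u) [MetricSpace M] [MeasurableSpace M] (m : Measure M) (K N : ℝ)
    (P : ℝ → (M →ₘ[m] ℝ) → (M →ₘ[m] ℝ)) (p : M) (s₀ C₀ : ℝ) : Prop where
  std : Std m K N
  hK : K ≤ 0
  /-- no atom at the centre (otherwise `|∇d_p| = 1` a.e. is false) -/
  atom : m {p} = 0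
  heat : Heat (sob m) K P
  hs : 0 < s₀
  hs1 : s₀ ≤ 1
  hC0 : 0 < C₀

/-- The Hilbert space model of the gradients and Hessians. -/
structure EHyp {M : Type u} [MetricSpace M] [MeasurableSpace M] (m : Measure M) (K N : ℝ)
    {E : Type} [NormedAddCommGroup E] [InnerProductSpace ℝ E]
    (Gr : (M →ₘ[m] ℝ) → M → E) (V : (M →ₘ[m] ℝ) → (M →ₘ[m] ℝ) → M → E)
    (D : (M →ₘ[m] ℝ) → (M →ₘ[m] ℝ))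
    (HO : (M →ₘ[m] ℝ) → M → E →L[ℝ] E) (e : ℕ → M →ₘ[m] ℝ) : Prop where
  /-- `E = ℓ²`; needed for joint measurability (helper994) -/
  sep : TopologicalSpace.SeparableSpace E
  stat : Stat (sob m) Gr HO e
  hu : IsHU (sob m) Gr V
  hd : IsHD (sob m) K N Gr V D

/-- C1: the limit objects exist. -/
def Blk_C1 : Prop :=
  ∀ (M : Type u) [MetricSpace M] [CompleteSpace M] [SecondCountableTopology M] [MeasurableSpace M]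
    [BorelSpace M] (m : Measure M) (K N : ℝ) (P : ℝ → (M →ₘ[m] ℝ) → (M →ₘ[m] ℝ))
    (p : M) (s₀ C₀ : ℝ), CHyp M m K N P p s₀ C₀ →
    ∀ (u : ℕ → ℝ → M →ₘ[m] ℝ) (φ : (M →ₘ[m] ℝ) → ℕ → ℝ → M →ₘ[m] ℝ),
      OutA m K N P p s₀ C₀ u φ →
    ∀ (U : Ultrafilter ℕ), (U : Filter ℕ) ≤ atTop →
    ∃ (φ₀ : ℝ → M → ℝ) (L B R₀ c : ℝ) (ρ : ℝ → M →ₘ[m] ℝ)
      (R : ℝ → ℝ → (M →ₘ[m] ℝ) → (M →ₘ[m] ℝ)),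
      PotLim m N p s₀ C₀ U (φ 0) u φ₀ L B R₀ c ∧ LimOf P U u φ ρ R ∧
      Lim m K N p s₀ C₀ (fun t => cl m (φ₀ t)) ρ R

/-- C2: determinism. -/
def Blk_C2 : Prop :=
  ∀ (M : Type u) [MetricSpace M] [CompleteSpace M] [SecondCountableTopology M] [MeasurableSpace M]
    [BorelSpace M] (m : Measure M) (K N : ℝ) (P : ℝ → (M →ₘ[m] ℝ) → (M →ₘ[m] ℝ))
    (p : M) (s₀ C₀ : ℝ), CHyp M m K N P p s₀ C₀ →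
    ∀ (φ ρ : ℝ → M →ₘ[m] ℝ) (R : ℝ → ℝ → (M →ₘ[m] ℝ) → (M →ₘ[m] ℝ)),
      Lim m K N p s₀ C₀ φ ρ R → Mult ρ R

/-- C3: the maps. -/
def Blk_C3 : Prop :=
  ∀ (M : Type u) [MetricSpace M] [CompleteSpace M] [SecondCountableTopology M] [MeasurableSpace M]
    [BorelSpace M] (m : Measure M) (K N : ℝ) (P : ℝ → (M →ₘ[m] ℝ) → (M →ₘ[m] ℝ))
    (p : M) (s₀ C₀ : ℝ), CHyp M m K N P p s₀ C₀ →
    ∀ (φ ρ : ℝ → M →ₘ[m] ℝ) (R : ℝ → ℝ → (M →ₘ[m] ℝ) → (M →ₘ[m] ℝ)),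
      Lim m K N p s₀ C₀ φ ρ R → Mult ρ R → ∃ Y : ℝ → M → M, Maps ρ R Y

/-- C4: the flow moves along geodesics. -/
def Blk_C4 : Prop :=
  ∀ (M : Type u) [MetricSpace M] [CompleteSpace M] [SecondCountableTopology M] [MeasurableSpace M]
    [BorelSpace M] (m : Measure M) (K N : ℝ) (P : ℝ → (M →ₘ[m] ℝ) → (M →ₘ[m] ℝ))
    (p : M) (s₀ C₀ : ℝ), CHyp M m K N P p s₀ C₀ →
    ∀ (φ ρ : ℝ → M →ₘ[m] ℝ) (R : ℝ → ℝ → (M →ₘ[m] ℝ) → (M →ₘ[m] ℝ)) (Y₀ : ℝ → M → M),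
      Lim m K N p s₀ C₀ φ ρ R → Maps ρ R Y₀ →
      ∃ Y : ℝ → M → M, Maps ρ R Y ∧ RFlow m K N p s₀ C₀ Y

/-- C4D: output for part D (one constant for all centres and all `s₀`). -/
def Blk_C4D : Prop :=
  ∀ (M : Type u) [MetricSpace M] [CompleteSpace M] [SecondCountableTopology M] [MeasurableSpace M]
    [BorelSpace M] (m : Measure M) (K N : ℝ), Std m K N → K ≤ 0 → (∀ p : M, m {p} = 0) →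
    (∀ (p : M) (s₀ C₀ : ℝ), 0 < s₀ → s₀ ≤ 1 → 0 < C₀ → ∃ φ ρ R Y,
      Lim m K N p s₀ C₀ φ ρ R ∧ Maps ρ R Y ∧ RFlow m K N p s₀ C₀ Y) → PD.HasContr m N

/-- C6a: strong convergence. -/
def Blk_C6a : Prop :=
  ∀ (M : Type u) [MetricSpace M] [CompleteSpace M] [SecondCountableTopology M] [MeasurableSpace M]
    [BorelSpace M] (m : Measure M) (K N κ : ℝ) (P : ℝ → (M →ₘ[m] ℝ) → (M →ₘ[m] ℝ))
    (p : M) (s₀ C₀ : ℝ), CHyp M m K N P p s₀ C₀ →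
    ∀ (E : Type) [NormedAddCommGroup E] [InnerProductSpace ℝ E] [CompleteSpace E]
    (Gr : (M →ₘ[m] ℝ) → M → E) (V : (M →ₘ[m] ℝ) → (M →ₘ[m] ℝ) → M → E)
    (D : (M →ₘ[m] ℝ) → (M →ₘ[m] ℝ))
    (HO : (M →ₘ[m] ℝ) → M → E →L[ℝ] E) (e : ℕ → M →ₘ[m] ℝ), EHyp m K N Gr V D HO e →
    ∀ (u : ℕ → ℝ → M →ₘ[m] ℝ) (φ : (M →ₘ[m] ℝ) → ℕ → ℝ → M →ₘ[m] ℝ),
      OutA m K N P p s₀ C₀ u φ → LevB m Gr V D κ u φ →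
    ∀ (U : Ultrafilter ℕ), (U : Filter ℕ) ≤ atTop →
    ∀ (φ₀ : ℝ → M → ℝ) (L B R₀ c : ℝ) (ρ : ℝ → M →ₘ[m] ℝ)
      (R : ℝ → ℝ → (M →ₘ[m] ℝ) → (M →ₘ[m] ℝ)) (Y : ℝ → M → M),
      PotLim m N p s₀ C₀ U (φ 0) u φ₀ L B R₀ c → LimOf P U u φ ρ R →
      Lim m K N p s₀ C₀ (fun t => cl m (φ₀ t)) ρ R → Mult ρ R → Maps ρ R Y →
      Strong p s₀ C₀ U u φ Y

/-- C5: second derivative along the flow. -/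
def Blk_C5 : Prop :=
  ∀ (M : Type u) [MetricSpace M] [CompleteSpace M] [SecondCountableTopology M] [MeasurableSpace M]
    [BorelSpace M] (m : Measure M) (K N κ : ℝ) (P : ℝ → (M →ₘ[m] ℝ) → (M →ₘ[m] ℝ))
    (p : M) (s₀ C₀ : ℝ), CHyp M m K N P p s₀ C₀ →
    ∀ (E : Type) [NormedAddCommGroup E] [InnerProductSpace ℝ E] [CompleteSpace E]
    (Gr : (M →ₘ[m] ℝ) → M → E) (V : (M →ₘ[m] ℝ) → (M →ₘ[m] ℝ) → M → E)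
    (D : (M →ₘ[m] ℝ) → (M →ₘ[m] ℝ))
    (HO : (M →ₘ[m] ℝ) → M → E →L[ℝ] E) (e : ℕ → M →ₘ[m] ℝ), EHyp m K N Gr V D HO e →
    ∀ (u : ℕ → ℝ → M →ₘ[m] ℝ) (φ : (M →ₘ[m] ℝ) → ℕ → ℝ → M →ₘ[m] ℝ),
      OutA m K N P p s₀ C₀ u φ → LevB m Gr V D κ u φ →
    ∀ (U : Ultrafilter ℕ), (U : Filter ℕ) ≤ atTop →
    ∀ (φ₀ : ℝ → M → ℝ) (L B R₀ c : ℝ) (ρ : ℝ → M →ₘ[m] ℝ)
      (R : ℝ → ℝ → (M →ₘ[m] ℝ) → (M →ₘ[m] ℝ)) (Y : ℝ → M → M),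
      PotLim m N p s₀ C₀ U (φ 0) u φ₀ L B R₀ c → LimOf P U u φ ρ R →
      Lim m K N p s₀ C₀ (fun t => cl m (φ₀ t)) ρ R → Maps ρ R Y → RFlow m K N p s₀ C₀ Y →
      Strong p s₀ C₀ U u φ Y → Second m Gr HO p s₀ C₀ Y

/-- C6b: the weak limits of the Hessians of `θ`. -/
def Blk_C6b : Prop :=
  ∀ (M : Type u) [MetricSpace M] [CompleteSpace M] [SecondCountableTopology M] [MeasurableSpace M]
    [BorelSpace M] (m : Measure M) (K N κ : ℝ) (P : ℝ → (M →ₘ[m] ℝ) → (M →ₘ[m] ℝ))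
    (p : M) (s₀ C₀ : ℝ), CHyp M m K N P p s₀ C₀ →
    ∀ (E : Type) [NormedAddCommGroup E] [InnerProductSpace ℝ E] [CompleteSpace E]
    (Gr : (M →ₘ[m] ℝ) → M → E) (V : (M →ₘ[m] ℝ) → (M →ₘ[m] ℝ) → M → E)
    (D : (M →ₘ[m] ℝ) → (M →ₘ[m] ℝ))
    (HO : (M →ₘ[m] ℝ) → M → E →L[ℝ] E) (e : ℕ → M →ₘ[m] ℝ), EHyp m K N Gr V D HO e →
    ∀ (u : ℕ → ℝ → M →ₘ[m] ℝ) (φ : (M →ₘ[m] ℝ) → ℕ → ℝ → M →ₘ[m] ℝ),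
      OutA m K N P p s₀ C₀ u φ → LevB m Gr V D κ u φ →
    ∀ (U : Ultrafilter ℕ), (U : Filter ℕ) ≤ atTop →
    ∀ (φ₀ : ℝ → M → ℝ) (L B R₀ c : ℝ) (ρ : ℝ → M →ₘ[m] ℝ)
      (R : ℝ → ℝ → (M →ₘ[m] ℝ) → (M →ₘ[m] ℝ)) (Y : ℝ → M → M),
      PotLim m N p s₀ C₀ U (φ 0) u φ₀ L B R₀ c → LimOf P U u φ ρ R →
      Lim m K N p s₀ C₀ (fun t => cl m (φ₀ t)) ρ R → Mult ρ R → Maps ρ R Y →
      RFlow m K N p s₀ C₀ Y → Strong p s₀ C₀ U u φ Y →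
      ∃ Hs Λ, HLim m U Gr V u φ Y e Hs Λ

/-- C6: Riccati inequality and end point. -/
def Blk_C6 : Prop :=
  ∀ (M : Type u) [MetricSpace M] [CompleteSpace M] [SecondCountableTopology M] [MeasurableSpace M]
    [BorelSpace M] (m : Measure M) (K N κ : ℝ) (P : ℝ → (M →ₘ[m] ℝ) → (M →ₘ[m] ℝ))
    (p : M) (s₀ C₀ : ℝ), CHyp M m K N P p s₀ C₀ →
    ∀ (E : Type) [NormedAddCommGroup E] [InnerProductSpace ℝ E] [CompleteSpace E]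
    (Gr : (M →ₘ[m] ℝ) → M → E) (V : (M →ₘ[m] ℝ) → (M →ₘ[m] ℝ) → M → E)
    (D : (M →ₘ[m] ℝ) → (M →ₘ[m] ℝ))
    (HO : (M →ₘ[m] ℝ) → M → E →L[ℝ] E) (e : ℕ → M →ₘ[m] ℝ), EHyp m K N Gr V D HO e →
    ∀ (u : ℕ → ℝ → M →ₘ[m] ℝ) (φ : (M →ₘ[m] ℝ) → ℕ → ℝ → M →ₘ[m] ℝ),
      OutA m K N P p s₀ C₀ u φ → LevB m Gr V D κ u φ →
    ∀ (U : Ultrafilter ℕ), (U : Filter ℕ) ≤ atTop →
    ∀ (φ₀ : ℝ → M → ℝ) (L B R₀ c : ℝ) (ρ : ℝ → M →ₘ[m] ℝ)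
      (R : ℝ → ℝ → (M →ₘ[m] ℝ) → (M →ₘ[m] ℝ)) (Y : ℝ → M → M),
      PotLim m N p s₀ C₀ U (φ 0) u φ₀ L B R₀ c → LimOf P U u φ ρ R →
      Lim m K N p s₀ C₀ (fun t => cl m (φ₀ t)) ρ R → Mult ρ R → Maps ρ R Y →
      RFlow m K N p s₀ C₀ Y → Strong p s₀ C₀ U u φ Y →
    ∀ (Hs : (M →ₘ[m] ℝ) → ℝ → M → E) (Λ : ℝ → M → ℝ), HLim m U Gr V u φ Y e Hs Λ →
      RicFlow m κ Gr HO p s₀ C₀ Y Hs

/-- C7: output for part E (rational combinations, Lewy-Stampacchia, quantifiers). -/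
def Blk_C7 : Prop :=
  ∀ (M : Type u) [MetricSpace M] [CompleteSpace M] [SecondCountableTopology M] [MeasurableSpace M]
    [BorelSpace M] (m : Measure M) (K N κ : ℝ) (P : ℝ → (M →ₘ[m] ℝ) → (M →ₘ[m] ℝ))
    (p : M) (s₀ C₀ : ℝ), CHyp M m K N P p s₀ C₀ →
    ∀ (E : Type) [NormedAddCommGroup E] [InnerProductSpace ℝ E] [CompleteSpace E]
    (Gr : (M →ₘ[m] ℝ) → M → E) (V : (M →ₘ[m] ℝ) → (M →ₘ[m] ℝ) → M → E)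
    (D : (M →ₘ[m] ℝ) → (M →ₘ[m] ℝ))
    (HO : (M →ₘ[m] ℝ) → M → E →L[ℝ] E) (e : ℕ → M →ₘ[m] ℝ), EHyp m K N Gr V D HO e →
    ∀ (φ ρ : ℝ → M →ₘ[m] ℝ) (R : ℝ → ℝ → (M →ₘ[m] ℝ) → (M →ₘ[m] ℝ)) (Y : ℝ → M → M)
      (Hs : (M →ₘ[m] ℝ) → ℝ → M → E) (Λ : ℝ → M → ℝ),
      COut m K N κ Gr HO e p s₀ C₀ φ ρ R Y Hs Λ →
      FlowH Gr HO e κ p s₀ C₀ Y (fun i => Hs (e i)) Λ

/-- Assembly of part C (one centre). -/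
theorem cout (h1 : Blk_C1.{u}) (h2 : Blk_C2.{u}) (h3 : Blk_C3.{u}) (h4 : Blk_C4.{u})
    (h6a : Blk_C6a.{u}) (h5 : Blk_C5.{u}) (h6b : Blk_C6b.{u}) (h6 : Blk_C6.{u})
    (M : Type u) [MetricSpace M] [CompleteSpace M] [SecondCountableTopology M] [MeasurableSpace M]
    [BorelSpace M] (m : Measure M) (K N κ : ℝ) (P : ℝ → (M →ₘ[m] ℝ) → (M →ₘ[m] ℝ))
    (p : M) (s₀ C₀ : ℝ) (hyp : CHyp M m K N P p s₀ C₀)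
    (E : Type) [NormedAddCommGroup E] [InnerProductSpace ℝ E] [CompleteSpace E]
    (Gr : (M →ₘ[m] ℝ) → M → E) (V : (M →ₘ[m] ℝ) → (M →ₘ[m] ℝ) → M → E)
    (D : (M →ₘ[m] ℝ) → (M →ₘ[m] ℝ))
    (HO : (M →ₘ[m] ℝ) → M → E →L[ℝ] E) (e : ℕ → M →ₘ[m] ℝ) (hE : EHyp m K N Gr V D HO e)
    (u : ℕ → ℝ → M →ₘ[m] ℝ) (φ : (M →ₘ[m] ℝ) → ℕ → ℝ → M →ₘ[m] ℝ)
    (hL : OutA m K N P p s₀ C₀ u φ) (hB : LevB m Gr V D κ u φ) :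
    ∃ φ ρ R Y Hs Λ, COut m K N κ Gr HO e p s₀ C₀ φ ρ R Y Hs Λ := by
  let U : Ultrafilter ℕ := Filter.hyperfilter ℕ
  have hU : (U : Filter ℕ) ≤ atTop := Nat.hyperfilter_le_atTop
  obtain ⟨φ₀, L, B, R₀, c, ρ, R, a0, a1, a2⟩ := h1 M m K N P p s₀ C₀ hyp u φ hL U hU
  have a3 := h2 M m K N P p s₀ C₀ hyp _ ρ R a2
  obtain ⟨Y₀, a4⟩ := h3 M m K N P p s₀ C₀ hyp _ ρ R a2 a3
  obtain ⟨Y, a5, a6⟩ := h4 M m K N P p s₀ C₀ hyp _ ρ R Y₀ a2 a4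
  have a7 := h6a M m K N κ P p s₀ C₀ hyp E Gr V D HO e hE u φ hL hB U hU φ₀ L B R₀ c ρ R Y
    a0 a1 a2 a3 a5
  have a8 := h5 M m K N κ P p s₀ C₀ hyp E Gr V D HO e hE u φ hL hB U hU φ₀ L B R₀ c ρ R Y
    a0 a1 a2 a5 a6 a7
  obtain ⟨Hs, Λ, a9⟩ := h6b M m K N κ P p s₀ C₀ hyp E Gr V D HO e hE u φ hL hB U hU φ₀ L B R₀ c
    ρ R Y a0 a1 a2 a3 a5 a6 a7
  have a10 := h6 M m K N κ P p s₀ C₀ hyp E Gr V D HO e hE u φ hL hB U hU φ₀ L B R₀ c ρ R Y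
    a0 a1 a2 a3 a5 a6 a7 Hs Λ a9
  exact ⟨fun t => cl m (φ₀ t), ρ, R, Y, Hs, Λ, a2, a5, a6, a8, a9.meas, a9.measΛ, a9.nonneg,
    a9.int, a9.bd, a9.lin, a9.sym, a9.span, a10⟩

end blocks

end Vale.Agent.P233.PC
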