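import Vale.Agent.P233.Gig.Defs
import Mathlib.MeasureTheory.Measure.Hausdorff

/-! P233, (B) implies (A): top level of the assembly (helper843). The parts as propositions, and
the main theorem from the parts. -/

set_option linter.all false

open MeasureTheory Filter Topology Set
open scoped ENNReal NNReal InnerProductSpace MeasureTheory

universe u

namespace Vale.Agent.P233.Gig

/-- Hypotheses of (B): `m = ℋⁿ`, full support, `RCD((n-1)κ,n)`, distributional sectional curvature
`≥ κ` (all in the form of the statement file). -/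
structure HypB (M : Type u) [MetricSpace M] [MeasurableSpace M] [BorelSpace M] (n : ℕ) (κ : ℝ) :
    Prop where
  two_le : 2 ≤ n
  full : (μH[n] : Measure M).IsOpenPosMeasure
  rcd : T.IsRCD (μH[n] : Measure M) ((n - 1) * κ) n
  sec : T.DistSecGE (T.sob (μH[n] : Measure M)) κ

/-- geodesic space (as in `T.IsAlexandrov`) -/
def Geo (M : Type u) [MetricSpace M] : Prop :=
  ∀ x y : M, ∀ s t : ℝ, 0 ≤ s → 0 ≤ t → s + t = dist x y → ∃ w, dist x w = s ∧ dist w y = t

/-- D1: the space is proper and geodesic -/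
def PartD1 : Prop := ∀ (M : Type u) [MetricSpace M] [CompleteSpace M] [SecondCountableTopology M]
  [MeasurableSpace M] [BorelSpace M] (n : ℕ) (κ : ℝ), HypB M n κ →
    ProperSpace M ∧ Geo M

/-- D4: first variation -/
def PartD4 : Prop := ∀ (M : Type u) [MetricSpace M] [CompleteSpace M] [SecondCountableTopology M]
  [MeasurableSpace M] [BorelSpace M] (n : ℕ) (κ : ℝ), HypB M n κ →
    ∃ G : M → M → M → ℝ, FirstVar (μH[n] : Measure M) G

/-- A-E: weak Hessian bounds of the distance functions -/
def PartE : Prop := ∀ (M : Type u) [MetricSpace M] [CompleteSpace M] [SecondCountableTopology M]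
  [MeasurableSpace M] [BorelSpace M] (n : ℕ) (κ : ℝ), HypB M n κ →
    ∀ (p : M) (R : ℝ), Adm κ R → HessDist (μH[n] : Measure M) κ p R

/-- F2: concavity along geodesics -/
def PartF2 : Prop := ∀ (M : Type u) [MetricSpace M] [CompleteSpace M] [SecondCountableTopology M]
  [MeasurableSpace M] [BorelSpace M] (n : ℕ) (κ : ℝ), HypB M n κ →
    (∀ (p : M) (R : ℝ), Adm κ R → HessDist (μH[n] : Measure M) κ p R) → RadConc M κ

/-- F3, F4, F5: the metric end game -/
def PartF34 : Prop := ∀ (M : Type u) [MetricSpace M] [CompleteSpace M] [SecondCountableTopology M]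
  [MeasurableSpace M] [BorelSpace M] (m : Measure M) (κ : ℝ), m.IsOpenPosMeasure →
    ProperSpace M → Geo M → RadConc M κ → (∃ G : M → M → M → ℝ, FirstVar m G) →
    T.IsAlexandrov M κ

theorem isAlexandrov_of_parts (hD1 : PartD1.{u}) (hD4 : PartD4.{u}) (hE : PartE.{u})
    (hF2 : PartF2.{u}) (hF34 : PartF34.{u}) (M : Type u) [MetricSpace M] [CompleteSpace M]
    [SecondCountableTopology M] [MeasurableSpace M] [BorelSpace M] (n : ℕ) (κ : ℝ)
    (h : HypB M n κ) : T.IsAlexandrov M κ := by
  obtain ⟨h1, h2⟩ := hD1 M n κ h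
  exact hF34 M (μH[n]) κ h.full h1 h2 (hF2 M n κ h (hE M n κ h)) (hD4 M n κ h)

/-- The final statement: for a complete separable metric space with `m = ℋⁿ` of full support and
`RCD((n-1)κ,n)`, distributional sectional curvature `≥ κ` is equivalent to Alexandrov curvature
`≥ κ`. -/
theorem equiv_of_parts (hD1 : PartD1.{u}) (hD4 : PartD4.{u}) (hE : PartE.{u})
    (hF2 : PartF2.{u}) (hF34 : PartF34.{u}) (M : Type u) [MetricSpace M] [CompleteSpace M]
    [SecondCountableTopology M] [MeasurableSpace M] [BorelSpace M] (n : ℕ) (hn : 2 ≤ n) (κ : ℝ)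
    [hf : (μH[n] : Measure M).IsOpenPosMeasure]
    (hR : T.IsRCD (μH[n] : Measure M) ((n - 1) * κ) n) :
    T.IsAlexandrov M κ ↔ T.DistSecGE (T.sob (μH[n] : Measure M)) κ := by
  constructor
  · intro hA
    exact ab_T (N := (n : ℝ)) _ (by exact_mod_cast (by omega : 0 < n)) hA hR
  · intro hS
    exact isAlexandrov_of_parts hD1 hD4 hE hF2 hF34 M n κ ⟨hn, hf, hR, hS⟩

end Vale.Agent.P233.Gig
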